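import Vale.Agent.P018.R.Mul

namespace Vale.Agent.P018

open NumberField Polynomial Filter Topology

theorem close_root (k : ℕ) (hk : 1 ≤ k) :
    ∃ η : ℝ, 0 < η ∧ ∀ z : ℂ, ‖z - 1‖ ≤ η → ‖z - 1‖ ≤ 2 * ‖z ^ k - 1‖ := by
  have hc : Continuous fun z : ℂ => ∑ j ∈ Finset.range k, z ^ j := by fun_prop
  obtain ⟨δ, hδ, h⟩ := Metric.continuousAt_iff.1 (hc.continuousAt (x := 1)) (1 / 2) (by norm_num)
  refine ⟨δ / 2, half_pos hδ, fun z hz => ?_⟩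
  have h1 := h (x := z) (by rw [dist_eq_norm]; linarith)
  simp only [one_pow, Finset.sum_const, Finset.card_range, nsmul_eq_mul, mul_one,
    dist_eq_norm] at h1
  have h2 := norm_sub_norm_le (k : ℂ) (∑ j ∈ Finset.range k, z ^ j)
  rw [norm_sub_rev, Complex.norm_natCast] at h2
  have h3 : (1 : ℝ) ≤ k := by exact_mod_cast hk
  rw [← mul_geom_sum, norm_mul]
  nlinarith [norm_nonneg (z - 1)]

theorem close_pow (k : ℕ) {η : ℝ} (hη : ∀ z : ℂ, ‖z - 1‖ ≤ η → ‖z - 1‖ ≤ 2 * ‖z ^ k - 1‖)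
    {x x' y y' r r' : ℂ} {G D ε δ ι : ℝ} (hD : 0 ≤ D) (hG : 0 ≤ G) (h1 : ‖x'‖ ≤ G)
    (h2 : 1 ≤ G * ‖x'‖) (h3 : ‖x - x'‖ ≤ ε) (h4 : G * ε ≤ η) (h5 : 1 ≤ D * ‖y‖)
    (h6 : 1 ≤ D * ‖y'‖) (h7 : ‖y'‖ ≤ D) (h8 : ‖y - y'‖ ≤ δ) (h9 : x ^ k * y = r)
    (h10 : x' ^ k * y' = r') (h11 : ‖r - 1‖ ≤ ι) (h12 : ‖r' - 1‖ ≤ ι) (h13 : ι ≤ 2) :
    ‖x - x'‖ ≤ 2 * G * G ^ k * (D ^ 2 * (2 * ι * D + 3 * δ)) := by
  have hx' : x' ≠ 0 := by rintro rfl; norm_num at h2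
  have hδ : 0 ≤ δ := (norm_nonneg _).trans h8
  have hι : 0 ≤ ι := (norm_nonneg _).trans h11
  have e1 : x - x' = (x / x' - 1) * x' := by field_simp
  have e2 : x ^ k - x' ^ k = ((x / x') ^ k - 1) * x' ^ k := by rw [div_pow]; field_simp
  have a1 : ‖x / x' - 1‖ ≤ η := by
    rw [e1, norm_mul] at h3
    nlinarith [norm_nonneg (x / x' - 1)]
  have a2 := hη _ a1
  have a3 : ‖(x / x') ^ k - 1‖ ≤ G ^ k * ‖x ^ k - x' ^ k‖ := by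
    rw [e2, norm_mul, norm_pow, mul_left_comm, ← mul_pow]
    exact le_mul_of_one_le_right (norm_nonneg _) (one_le_pow₀ h2)
  have a4 : ‖r'‖ ≤ 3 := by
    have := norm_add_le (r' - 1) 1
    rw [sub_add_cancel, norm_one] at this
    linarith
  have a5 : ‖r - r'‖ ≤ 2 * ι := by
    have := norm_sub_le (r - 1) (r' - 1)
    rw [sub_sub_sub_cancel_right] at this
    linarith
  have a6 : ‖(x ^ k - x' ^ k) * (y * y')‖ ≤ 2 * ι * D + 3 * δ := by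
    have e3 : (x ^ k - x' ^ k) * (y * y') = (r - r') * y' - r' * (y - y') := by
      rw [← h9, ← h10]; ring
    rw [e3]
    refine (norm_sub_le _ _).trans ?_
    rw [norm_mul, norm_mul]
    gcongr
  have a7 : ‖x ^ k - x' ^ k‖ ≤ D ^ 2 * (2 * ι * D + 3 * δ) := by
    refine le_trans ?_ (mul_le_mul_of_nonneg_left a6 (sq_nonneg D))
    rw [norm_mul, norm_mul]
    have := one_le_mul_of_one_le_of_one_le h5 h6
    nlinarith [norm_nonneg (x ^ k - x' ^ k)]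
  rw [e1, norm_mul]
  calc ‖x / x' - 1‖ * ‖x'‖ ≤ (2 * (G ^ k * (D ^ 2 * (2 * ι * D + 3 * δ)))) * G := by
        gcongr
        refine a2.trans ?_
        gcongr
        refine a3.trans ?_
        gcongr
    _ = _ := by ring

theorem close_quot {u u' v v' : ℂ} {C Λ : ℝ} (h1 : 1 ≤ C * ‖v‖) (h2 : v' ≠ 0) (h3 : ‖u'‖ ≤ ‖v'‖)
    (h4 : ‖u - u'‖ ≤ Λ) (h5 : ‖v - v'‖ ≤ Λ) : ‖u / v - u' / v'‖ ≤ 2 * C * Λ := by
  have hv : v ≠ 0 := by rintro rfl; norm_num at h1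
  have hΛ : 0 ≤ Λ := (norm_nonneg _).trans h4
  have e1 : (u / v - u' / v') * v * v' = (u - u') * v' - u' * (v - v') := by field_simp; ring
  have a1 : ‖(u / v - u' / v') * v * v'‖ ≤ 2 * Λ * ‖v'‖ := by
    rw [e1]
    refine (norm_sub_le _ _).trans ?_
    rw [norm_mul, norm_mul]
    nlinarith [norm_nonneg u', norm_nonneg v', norm_nonneg (v - v')]
  rw [norm_mul, norm_mul] at a1
  have a2 := le_of_mul_le_mul_right a1 (norm_pos_iff.2 h2)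
  have hC : 0 ≤ C := by
    by_contra h
    nlinarith [norm_nonneg v]
  nlinarith [norm_nonneg (u / v - u' / v')]

theorem close_div {u v : ℂ} {Q D1 D2 : ℝ} (hQ : 0 < Q) (hD1 : 0 ≤ D1)
    (h1 : ‖u‖ ≤ D1 * Q) (h2 : Q ≤ D2 * ‖u‖) (h3 : ‖v‖ ≤ D1 * Q) (h4 : Q ≤ D2 * ‖v‖) :
    ‖u / v‖ ≤ D1 * D2 ∧ 1 ≤ D1 * D2 * ‖u / v‖ := by
  have hv : 0 < ‖v‖ := by
    by_contra h
    have : ‖v‖ = 0 := le_antisymm (not_lt.1 h) (norm_nonneg _)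
    rw [this] at h4
    linarith
  rw [norm_div, div_le_iff₀ hv, ← mul_div_assoc, le_div_iff₀ hv]
  constructor
  · nlinarith [mul_le_mul_of_nonneg_left h4 hD1]
  · nlinarith [mul_le_mul_of_nonneg_left h2 hD1]

variable {F : Type} [Field F] [NumberField F]

theorem close_lin {e : ℕ} (c : GCtx e F) (φ : F →+* ℂ) : ∃ (W : Fin (e + 1) → Fin (e + 1) → ℂ)
    (K : ℝ), 1 ≤ K ∧ (∀ (x : Fin (e + 1) → ℤ) l, (x l : ℂ) = ∑ i, W l i * pv x (emb φ (c.ϑ i))) ∧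
      ∀ l (z : Fin (e + 1) → ℂ) (B : ℝ), (∀ i, ‖z i‖ ≤ B) → ‖∑ i, W l i * z i‖ ≤ K * B := by
  obtain ⟨d, E, hd, h, -⟩ := c.beta_coords 0
  have hd' : (d : ℂ) ≠ 0 := by exact_mod_cast hd
  refine ⟨fun l i => emb φ (E l i) / d, 1 + ∑ l, ∑ i, ‖emb φ (E l i) / d‖,
    le_add_of_nonneg_right (by positivity), fun x l => ?_, fun l z B hz => ?_⟩
  · apply mul_left_cancel₀ hd'
    rw [h ℂ (emb φ) (fun j => (x j : ℂ)) l, Finset.mul_sum]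
    refine Finset.sum_congr rfl fun i _ => ?_
    rw [pv]
    field_simp
  · have hB : 0 ≤ B := (norm_nonneg _).trans (hz 0)
    refine (norm_sum_le _ _).trans ?_
    have h1 : ∑ i, ‖emb φ (E l i) / d‖ ≤ ∑ l, ∑ i, ‖emb φ (E l i) / d‖ :=
      Finset.single_le_sum (f := fun l => ∑ i, ‖emb φ (E l i) / (d : ℂ)‖)
        (fun _ _ => by positivity) (Finset.mem_univ l)
    calc ∑ i, ‖emb φ (E l i) / d * z i‖ ≤ ∑ i, ‖emb φ (E l i) / d‖ * B :=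
          Finset.sum_le_sum fun i _ => by rw [norm_mul]; gcongr; exact hz i
      _ = (∑ i, ‖emb φ (E l i) / d‖) * B := by rw [Finset.sum_mul]
      _ ≤ _ := by gcongr; linarith

/-- sizes at one point -/
theorem close_pt {e : ℕ} (c : GCtx e F) (k : ℕ) (A : ℝ) (hA : 0 ≤ A) (d0 : ℤ) (hd0 : d0 ≠ 0)
    (φ : F →+* ℂ) : ∃ C D1 D2 : ℝ, 1 ≤ C ∧ 1 ≤ D1 ∧ 1 ≤ D2 ∧ (∀ i, ‖emb φ (c.ϑ i)‖ ≤ C) ∧
      (∀ i (a : Fin (e + 1) → ℤ) (P : ℝ), (∀ l, |(a l : ℝ)| ≤ P) →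
        ‖pv a (emb φ (c.ϑ i))‖ ≤ C * P) ∧
      ∀ X : ℝ, 2 * C ≤ X → ∀ (N : ℤ) (p : ℕ) (a b : Fin (e + 1) → ℤ) (m : 𝓞 F)
        (β : Fin (e + 1) → 𝓞 F), PtData c.ϑ k N p a m β → X ≤ |(N : ℝ)| → |(N : ℝ)| ≤ A * X →
        (∀ i, pv b (c.ϑ i) = (d0 : 𝓞 F) * β i) → ∀ i,
        (p : ℝ) ^ (1 / ((e : ℝ) + 1)) ≤ C * ‖pv a (emb φ (c.ϑ i))‖ ∧
        ‖pv b (emb φ (c.ϑ i))‖ ≤ D1 * (X / (p : ℝ) ^ ((k : ℝ) / ((e : ℝ) + 1))) ∧
        X / (p : ℝ) ^ ((k : ℝ) / ((e : ℝ) + 1)) ≤ D2 * ‖pv b (emb φ (c.ϑ i))‖ ∧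
        ∃ r : ℂ, (pv a (emb φ (c.ϑ i)) / pv a (emb φ (c.ϑ 0))) ^ k *
          (pv b (emb φ (c.ϑ i)) / pv b (emb φ (c.ϑ 0))) = r ∧ ‖r - 1‖ ≤ 4 * C / X := by
  obtain ⟨C, hC, h1, h2, h3⟩ := size_bounds c.ϑ c.hind
  have hd : (1 : ℝ) ≤ |(d0 : ℝ)| := by exact_mod_cast Int.one_le_abs hd0
  have hd' : (d0 : ℂ) ≠ 0 := by exact_mod_cast hd0
  set n := Module.finrank ℚ F - 1
  refine ⟨C, |(d0 : ℝ)| * (C ^ k * C ^ k * (A + 1)), 2 * ((C ^ n) ^ k * C ^ k), hC, ?_, ?_, h1 φ,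
    h2 φ, fun X hX N p a b m β h hN1 hN2 hb => ?_⟩
  · have := one_le_pow₀ (n := k) hC
    exact one_le_mul_of_one_le_of_one_le hd (one_le_mul_of_one_le_of_one_le
      (one_le_mul_of_one_le_of_one_le this this) (by linarith))
  · have := one_le_mul_of_one_le_of_one_le (one_le_pow₀ (n := k) (one_le_pow₀ (n := n) hC))
      (one_le_pow₀ (n := k) hC)
    linarith
  obtain ⟨hm0, hm⟩ := h3 p a m h.hp h.ha0 h.hab h.hm
  have hp0 : (0 : ℝ) < p := by exact_mod_cast h.hp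
  set P := (p : ℝ) ^ (1 / ((e : ℝ) + 1)) with hP
  have hP0 : 0 < P := Real.rpow_pos_of_pos hp0 _
  have hPk : (p : ℝ) ^ ((k : ℝ) / ((e : ℝ) + 1)) = P ^ k := by
    rw [hP, ← Real.rpow_natCast, ← Real.rpow_mul hp0.le]
    congr 1
    ring
  have hX0 : 0 < X := by linarith
  have hμ := emb_lower m hm0 C (fun ψ => (hm ψ).1) φ
  have hβ : ∀ i, pv a (emb φ (c.ϑ i)) ^ k * emb φ (β i) = emb φ m ^ k * (N - emb φ (c.ϑ i)) := by
    intro i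
    have := congrArg (emb φ) (h.hβ i)
    rwa [map_mul, map_mul, map_pow, map_pow, map_pv, map_sub, map_intCast] at this
  have hB : ∀ i, pv b (emb φ (c.ϑ i)) = d0 * emb φ (β i) := by
    intro i
    have := congrArg (emb φ) (hb i)
    rwa [map_mul, map_pv, map_intCast] at this
  have hN : ∀ i, X / 2 ≤ ‖(N : ℂ) - emb φ (c.ϑ i)‖ ∧ ‖(N : ℂ) - emb φ (c.ϑ i)‖ ≤ (A + 1) * X := by
    intro i
    have a1 := norm_sub_norm_le (N : ℂ) (emb φ (c.ϑ i))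
    have a2 := norm_sub_le (N : ℂ) (emb φ (c.ϑ i))
    rw [Complex.norm_intCast] at a1 a2
    have := h1 φ i
    constructor <;> linarith
  have hn : ∀ i, ‖pv a (emb φ (c.ϑ i))‖ ^ k * ‖emb φ (β i)‖ =
      ‖emb φ m‖ ^ k * ‖(N : ℂ) - emb φ (c.ϑ i)‖ := by
    intro i
    rw [← norm_pow, ← norm_pow, ← norm_mul, ← norm_mul, hβ]
  have hlow : ∀ i, X / P ^ k ≤ 2 * ((C ^ n) ^ k * C ^ k) * ‖emb φ (β i)‖ := by
    intro i
    rw [div_le_iff₀ (by positivity)]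
    have a1 : 1 ≤ (‖emb φ m‖ * C ^ n) ^ k := one_le_pow₀ hμ
    have a2 : ‖pv a (emb φ (c.ϑ i))‖ ^ k ≤ (C * P) ^ k :=
      pow_le_pow_left₀ (norm_nonneg _) (h2 φ i a P h.hab) k
    calc X ≤ 2 * ‖(N : ℂ) - emb φ (c.ϑ i)‖ := by linarith [(hN i).1]
      _ ≤ 2 * ((‖emb φ m‖ * C ^ n) ^ k * ‖(N : ℂ) - emb φ (c.ϑ i)‖) := by
          gcongr
          exact le_mul_of_one_le_left (norm_nonneg _) a1
      _ = 2 * ((C ^ n) ^ k * (‖pv a (emb φ (c.ϑ i))‖ ^ k * ‖emb φ (β i)‖)) := by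
          rw [hn, mul_pow]; ring
      _ ≤ 2 * ((C ^ n) ^ k * ((C * P) ^ k * ‖emb φ (β i)‖)) := by gcongr
      _ = _ := by rw [mul_pow]; ring
  intro i
  rw [hPk, hB, hB, norm_mul, Complex.norm_intCast]
  refine ⟨(hm φ).2 i, ?_, (hlow i).trans ?_,
    (N - emb φ (c.ϑ i)) / (N - emb φ (c.ϑ 0)), ?_, ?_⟩
  · rw [mul_assoc]
    gcongr
    rw [← mul_div_assoc, le_div_iff₀ (by positivity)]
    have a2 : P ^ k ≤ (C * ‖pv a (emb φ (c.ϑ i))‖) ^ k := pow_le_pow_left₀ hP0.le ((hm φ).2 i) k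
    calc ‖emb φ (β i)‖ * P ^ k ≤ ‖emb φ (β i)‖ * (C * ‖pv a (emb φ (c.ϑ i))‖) ^ k := by gcongr
      _ = C ^ k * (‖emb φ m‖ ^ k * ‖(N : ℂ) - emb φ (c.ϑ i)‖) := by rw [← hn, mul_pow]; ring
      _ ≤ C ^ k * (C ^ k * ((A + 1) * X)) := by
          gcongr
          exacts [(hm φ).1, (hN i).2]
      _ = _ := by ring
  · gcongr
    exact le_mul_of_one_le_left (norm_nonneg _) hd
  · have hμ0 : emb φ m ^ k ≠ 0 := pow_ne_zero _ (by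
      intro h0
      rw [h0, norm_zero, zero_mul] at hμ
      linarith)
    rw [← mul_div_mul_left ((N : ℂ) - _) _ hμ0, ← hβ, ← hβ, div_pow, mul_div_mul_left _ _ hd',
      div_mul_div_comm]
  · have h0 : (N : ℂ) - emb φ (c.ϑ 0) ≠ 0 := norm_pos_iff.1 (by linarith [(hN 0).1])
    have e1 : (N - emb φ (c.ϑ i)) / (N - emb φ (c.ϑ 0)) - 1 =
        (emb φ (c.ϑ 0) - emb φ (c.ϑ i)) / (N - emb φ (c.ϑ 0)) := by
      field_simp; ring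
    rw [e1, norm_div, div_le_div_iff₀ (norm_pos_iff.2 h0) hX0]
    have a1 := norm_sub_le (emb φ (c.ϑ 0)) (emb φ (c.ϑ i))
    have a2 := h1 φ 0
    have a3 := h1 φ i
    have a4 := (hN 0).1
    nlinarith

omit [NumberField F] in
theorem close_ne {e : ℕ} {a : Fin (e + 1) → ℤ} {l0 : Fin (e + 1)} (ha : a ≠ 0)
    (h : ∀ l, |(a l : ℝ)| ≤ |(a l0 : ℝ)|) : a l0 ≠ 0 := by
  intro h0
  apply ha
  funext l
  have := h l
  rw [h0, Int.cast_zero, abs_zero] at this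
  exact_mod_cast abs_nonpos_iff.1 this

/-- sizes of the coordinates of `β`; close directions of `β` give close directions of `α` inside
a coarse box -/
theorem beta_close {e : ℕ} (c : GCtx e F) (k : ℕ) (hk : 1 ≤ k) (A : ℝ) (hA : 0 ≤ A) (d0 : ℤ)
    (hd0 : d0 ≠ 0) : ∃ ε0 C1 X0 : ℝ, 0 < ε0 ∧ 1 ≤ C1 ∧ ∀ X : ℝ, X0 ≤ X →
    (∀ (N : ℤ) (p : ℕ) (a b : Fin (e + 1) → ℤ) (m : 𝓞 F) (β : Fin (e + 1) → 𝓞 F),
      PtData c.ϑ k N p a m β → X ≤ |(N : ℝ)| → |(N : ℝ)| ≤ A * X →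
      (∀ i, pv b (c.ϑ i) = (d0 : 𝓞 F) * β i) →
      b ≠ 0 ∧ ∀ l, |(b l : ℝ)| ≤ C1 * X / (p : ℝ) ^ ((k : ℝ) / ((e : ℝ) + 1))) ∧
    ∀ (N N' : ℤ) (p p' : ℕ) (a a' b b' : Fin (e + 1) → ℤ) (m m' : 𝓞 F)
      (β β' : Fin (e + 1) → 𝓞 F) (l0 l1 : Fin (e + 1)) (δ : ℝ),
      PtData c.ϑ k N p a m β → PtData c.ϑ k N' p' a' m' β' →
      X ≤ |(N : ℝ)| → |(N : ℝ)| ≤ A * X → X ≤ |(N' : ℝ)| → |(N' : ℝ)| ≤ A * X →
      (∀ i, pv b (c.ϑ i) = (d0 : 𝓞 F) * β i) → (∀ i, pv b' (c.ϑ i) = (d0 : 𝓞 F) * β' i) →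
      (∀ l, |(a l : ℝ)| ≤ |(a l0 : ℝ)|) → (∀ l, |(a' l : ℝ)| ≤ |(a' l0 : ℝ)|) →
      (∀ l, |(b l : ℝ)| ≤ |(b l1 : ℝ)|) → (∀ l, |(b' l : ℝ)| ≤ |(b' l1 : ℝ)|) →
      (∀ l, |(a l : ℝ) / a l0 - (a' l : ℝ) / a' l0| ≤ ε0) →
      (∀ l, |(b l : ℝ) / b l1 - (b' l : ℝ) / b' l1| ≤ δ) →
      ∀ l, |(a l : ℝ) / a l0 - (a' l : ℝ) / a' l0| ≤ C1 * (δ + 1 / X) := by
  obtain ⟨φ⟩ : Nonempty (F →+* ℂ) := inferInstance
  obtain ⟨W, K, hK, hW, hWK⟩ := close_lin c φ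
  obtain ⟨C, D1, D2, hC, hD1, hD2, ht, hup, hpt⟩ := close_pt c k A hA d0 hd0 φ
  obtain ⟨η, hη, hroot⟩ := close_root k hk
  set C' := C + K * D1 * D2 with hC'
  have hC'1 : C ≤ C' := le_add_of_nonneg_right (by positivity)
  set L1 := 2 * ((e + 1) * C' ^ e) ^ 2 * C' ^ 2 with hL1
  set L2 := 2 * ((e + 1) * C ^ e) ^ 2 * C ^ 2 with hL2
  have hL10 : 0 ≤ L1 := by positivity
  have hL20 : 0 < L2 := by positivity
  set L := 2 * (C * C) * (C * C) ^ k * ((D1 * D2) ^ 2 * (8 * C * (D1 * D2) + 3 * L1)) with hL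
  have hL0 : 0 ≤ L := by positivity
  have hb1 : ∀ X : ℝ, 2 * C ≤ X → ∀ (N : ℤ) (p : ℕ) (a b : Fin (e + 1) → ℤ) (m : 𝓞 F)
      (β : Fin (e + 1) → 𝓞 F), PtData c.ϑ k N p a m β → X ≤ |(N : ℝ)| → |(N : ℝ)| ≤ A * X →
      (∀ i, pv b (c.ϑ i) = (d0 : 𝓞 F) * β i) →
      0 < X / (p : ℝ) ^ ((k : ℝ) / ((e : ℝ) + 1)) ∧ b ≠ 0 ∧
        ∀ l, |(b l : ℝ)| ≤ K * (D1 * (X / (p : ℝ) ^ ((k : ℝ) / ((e : ℝ) + 1)))) := by
    intro X hX N p a b m β h h1 h2 h3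
    have h4 := hpt X hX N p a b m β h h1 h2 h3
    have hp0 : (0 : ℝ) < p := by exact_mod_cast h.hp
    have hQ : 0 < X / (p : ℝ) ^ ((k : ℝ) / ((e : ℝ) + 1)) :=
      div_pos (by linarith) (Real.rpow_pos_of_pos hp0 _)
    refine ⟨hQ, ?_, fun l => ?_⟩
    · rintro rfl
      have := (h4 0).2.2.1
      simp only [pv, Pi.zero_apply, Int.cast_zero, zero_mul, Finset.sum_const_zero, norm_zero,
        mul_zero] at this
      linarith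
    · rw [← Complex.norm_intCast, hW b l]
      exact hWK l _ _ fun i => (h4 i).2.1
  refine ⟨η / (C * C * L2), 1 + K * D1 + 2 * C * (K * L), 2 * C, by positivity,
    by linarith [show 0 ≤ K * D1 by positivity, show 0 ≤ 2 * C * (K * L) by positivity],
    fun X hX => ⟨fun N p a b m β h h1 h2 h3 => ?_, ?_⟩⟩
  · obtain ⟨hQ, h4, h5⟩ := hb1 X hX N p a b m β h h1 h2 h3
    refine ⟨h4, fun l => (h5 l).trans ?_⟩
    rw [mul_div_assoc, ← mul_assoc]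
    gcongr
    have : 0 ≤ 2 * C * (K * L) := by positivity
    linarith
  intro N N' p p' a a' b b' m m' β β' l0 l1 δ h h' n1 n2 n1' n2' hb hb' ma ma' mb mb' hε hδ l
  have hX0 : 0 < X := by linarith
  have hδ0 : 0 ≤ δ := (abs_nonneg _).trans (hδ 0)
  have q := hpt X hX N p a b m β h n1 n2 hb
  have q' := hpt X hX N' p' a' b' m' β' h' n1' n2' hb'
  obtain ⟨hQ, b0, bb⟩ := hb1 X hX N p a b m β h n1 n2 hb
  obtain ⟨hQ', b0', bb'⟩ := hb1 X hX N' p' a' b' m' β' h' n1' n2' hb'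
  have hP : 0 < (p : ℝ) ^ (1 / ((e : ℝ) + 1)) :=
    Real.rpow_pos_of_pos (by exact_mod_cast h.hp) _
  have hP' : 0 < (p' : ℝ) ^ (1 / ((e : ℝ) + 1)) :=
    Real.rpow_pos_of_pos (by exact_mod_cast h'.hp) _
  have a0 := close_ne h.ha0 ma
  have a0' := close_ne h'.ha0 ma'
  have aux : ∀ {Q z : ℝ}, 0 ≤ z → Q ≤ D2 * z → K * (D1 * Q) ≤ C' * z := by
    intro Q z hz hQ
    calc K * (D1 * Q) ≤ K * (D1 * (D2 * z)) := by gcongr
      _ = K * D1 * D2 * z := by ring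
      _ ≤ C' * z := by gcongr; linarith
  have hx : ∀ i, ‖pv a (emb φ (c.ϑ i)) / pv a (emb φ (c.ϑ 0)) -
      pv a' (emb φ (c.ϑ i)) / pv a' (emb φ (c.ϑ 0))‖ ≤ L * (δ + 1 / X) := by
    intro i
    have r1 := ratio_close a a' l0 C _ _ _ hC _ _ (ht 0) (ht i) a0 a0' ma' (h.hab l0) (h'.hab l0)
      (q 0).1 (q' 0).1 hε
    have r2 := ratio_close b b' l1 C' _ _ _ (hC.trans hC'1) _ _ ((ht 0).trans hC'1)
      ((ht i).trans hC'1) (close_ne b0 mb) (close_ne b0' mb') mb' (bb l1) (bb' l1)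
      (aux (norm_nonneg _) (q 0).2.2.1) (aux (norm_nonneg _) (q' 0).2.2.1) hδ
    obtain ⟨x1, x2⟩ := close_div hP' (by linarith) (hup i a' _ h'.hab) (q' i).1
      (hup 0 a' _ h'.hab) (q' 0).1
    obtain ⟨-, y2⟩ := close_div hQ (by linarith) (q i).2.1 (q i).2.2.1
      (q 0).2.1 (q 0).2.2.1
    obtain ⟨y3, y4⟩ := close_div hQ' (by linarith) (q' i).2.1 (q' i).2.2.1
      (q' 0).2.1 (q' 0).2.2.1
    obtain ⟨r, e1, e2⟩ := (q i).2.2.2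
    obtain ⟨r', e3, e4⟩ := (q' i).2.2.2
    refine (close_pow k hroot (by positivity) (by positivity) x1 x2 r1 (le_of_eq ?_) y2 y4 y3 r2
      e1 e3 e2 e4 (by rw [div_le_iff₀ hX0]; linarith)).trans ?_
    · rw [← hL2]; field_simp
    · rw [← hL1, hL, mul_assoc (2 * (C * C) * (C * C) ^ k), mul_assoc ((D1 * D2) ^ 2)]
      gcongr
      have e5 : 2 * (4 * C / X) * (D1 * D2) = 8 * C * (D1 * D2) * (1 / X) := by ring
      have i1 : 0 ≤ 8 * C * (D1 * D2) * δ := by positivity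
      have i2 : 0 ≤ 3 * L1 * (1 / X) := by positivity
      rw [e5, add_mul, mul_add, mul_add]
      linarith
  have hα : ∀ {a : Fin (e + 1) → ℤ} {P : ℝ}, 0 < P → P ≤ C * ‖pv a (emb φ (c.ϑ 0))‖ →
      pv a (emb φ (c.ϑ 0)) ≠ 0 := by
    intro a P h1 h2 h0
    rw [h0, norm_zero] at h2
    linarith
  have α0 := hα hP (q 0).1
  have α0' := hα hP' (q' 0).1
  have hu : ∀ j, ‖(a j : ℂ) / pv a (emb φ (c.ϑ 0)) - (a' j : ℂ) / pv a' (emb φ (c.ϑ 0))‖ ≤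
      K * (L * (δ + 1 / X)) := by
    intro j
    rw [hW a j, hW a' j, Finset.sum_div, Finset.sum_div, ← Finset.sum_sub_distrib]
    simp only [mul_div_assoc, ← mul_sub]
    exact hWK j _ _ hx
  have hq := close_quot (C := C) (v := (a l0 : ℂ) / pv a (emb φ (c.ϑ 0))) (by
      rw [norm_div, ← mul_div_assoc, le_div_iff₀ (norm_pos_iff.2 α0), one_mul,
        Complex.norm_intCast]
      exact hup 0 a _ ma)
    (div_ne_zero (by exact_mod_cast a0') α0') (by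
      rw [norm_div, norm_div, Complex.norm_intCast, Complex.norm_intCast]
      exact div_le_div_of_nonneg_right (ma' l) (norm_nonneg _)) (hu l) (hu l0)
  rw [div_div_div_cancel_right₀ α0, div_div_div_cancel_right₀ α0'] at hq
  have e1 : (a l : ℂ) / a l0 - (a' l : ℂ) / a' l0 =
      (((a l : ℝ) / a l0 - (a' l : ℝ) / a' l0 : ℝ) : ℂ) := by push_cast; rfl
  rw [e1, Complex.norm_real, Real.norm_eq_abs] at hq
  refine hq.trans ?_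
  have i1 : 0 ≤ δ + 1 / X := by positivity
  have i2 : 0 ≤ (1 + K * D1) * (δ + 1 / X) := by positivity
  rw [add_mul, ← mul_assoc K, ← mul_assoc (2 * C)]
  linarith

/-- parallel `α` and equal `β` force equal `N` -/
theorem eq_of_parallel {e : ℕ} (he : 1 ≤ e) (c : GCtx e F) (k : ℕ) (d0 : ℤ) (hd0 : d0 ≠ 0)
    (N N' : ℤ) (p p' : ℕ) (a a' b : Fin (e + 1) → ℤ) (m m' : 𝓞 F)
    (β β' : Fin (e + 1) → 𝓞 F) (l0 : Fin (e + 1)) (h : PtData c.ϑ k N p a m β)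
    (h' : PtData c.ϑ k N' p' a' m' β') (hb : ∀ i, pv b (c.ϑ i) = (d0 : 𝓞 F) * β i)
    (hb' : ∀ i, pv b (c.ϑ i) = (d0 : 𝓞 F) * β' i) (h0 : a l0 ≠ 0) (h0' : a' l0 ≠ 0)
    (hpar : ∀ l, a l * a' l0 = a' l * a l0) : N = N' := by
  have _ := h0
  have hd : (d0 : 𝓞 F) ≠ 0 := by exact_mod_cast hd0
  have hβ : ∀ i, β i = β' i := fun i => mul_left_cancel₀ hd ((hb i).symm.trans (hb' i))
  have hm : m ≠ 0 := by
    intro hm
    have h1 := h.hm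
    rw [hm, mul_zero, Finset.prod_eq_zero_iff] at h1
    obtain ⟨i, -, hi⟩ := h1
    exact c.hind i a h.ha0 hi
  have hα : ∀ i, pv a (c.ϑ i) * a' l0 = pv a' (c.ϑ i) * a l0 := by
    intro i
    simp only [pv, Finset.sum_mul]
    refine Finset.sum_congr rfl fun l _ => ?_
    have : (a l : 𝓞 F) * a' l0 = a' l * a l0 := by exact_mod_cast hpar l
    linear_combination (c.ϑ i ^ (l : ℕ)) * this
  have h1 : ∀ i, (a' l0 : 𝓞 F) ^ k * m ^ k * (N - c.ϑ i) =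
      (a l0 : 𝓞 F) ^ k * m' ^ k * (N' - c.ϑ i) := by
    intro i
    rw [mul_assoc, mul_assoc, ← h.hβ, ← h'.hβ, ← mul_assoc, ← mul_assoc, ← mul_pow, ← mul_pow,
      mul_comm _ (pv a _), hα, hβ, mul_comm (pv a' _)]
  have h2 : c.ϑ ⟨1, by omega⟩ - c.ϑ 0 ≠ 0 := sub_ne_zero.2 (c.hinj.ne (by simp [Fin.ext_iff]))
  have h3 : (a' l0 : 𝓞 F) ^ k * m ^ k = (a l0 : 𝓞 F) ^ k * m' ^ k := by
    apply mul_right_cancel₀ h2
    linear_combination h1 0 - h1 ⟨1, by omega⟩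
  have h4 := h1 0
  rw [← h3] at h4
  have h5 := mul_left_cancel₀ (mul_ne_zero (pow_ne_zero k (by exact_mod_cast h0'))
    (pow_ne_zero k hm)) h4
  exact_mod_cast sub_left_inj.1 h5

end Vale.Agent.P018
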