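import Vale.Agent.P018.R.Defs

namespace Vale.Agent.P018

open Finset

theorem co_num (c1 κ G n : ℕ) (hc : 1 ≤ c1) (hκ1 : 1 ≤ κ) : ∃ D : ℕ,
    c1 * (κ * D + 1) ^ n * (G * (κ * D) + 1) < (D + 1) ^ (n + 2) := by
  set D := c1 * κ ^ n * ((G + 1) * κ) with hD
  refine ⟨D, ?_⟩
  calc c1 * (κ * D + 1) ^ n * (G * (κ * D) + 1)
      ≤ c1 * (κ * (D + 1)) ^ n * ((G + 1) * κ * (D + 1)) := by
        gcongr
        · nlinarith
        · nlinarith [Nat.zero_le (G * κ), Nat.zero_le (κ * D)]
    _ = D * (D + 1) ^ (n + 1) := by rw [mul_pow]; nth_rewrite 3 [hD]; ring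
    _ < (D + 1) ^ (n + 2) := by
        rw [pow_succ' (D + 1) (n + 1)]
        exact Nat.mul_lt_mul_of_pos_right (Nat.lt_succ_self D) (by positivity)

/-- relations between any `n + 3` coordinates of the cone -/
theorem cone_rel (e n Δ b d' r : ℕ) : ∃ C D : ℕ, ∀ (F : Type) [Field F] (T : Finset ℤ)
    (x : ℤ → Fin e → F) (ρ : ℤ → F) (v : ℤ → Fin d' → F)
    (g : Fin d' → MvPolynomial (Fin (e + 1)) F), (∀ l, (g l).totalDegree ≤ r) →
    (∀ N ∈ T, ∀ l, v N l = ρ N * MvPolynomial.eval (Fin.cons ((N : ℤ) : F) (x N)) (g l)) →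
    (∀ τ : Fin (n + 1) ↪ Fin e, ∃ Ψ : MvPolynomial (Fin (n + 1)) (Polynomial F), Ψ ≠ 0 ∧
      (∀ E ∈ Ψ.support, ∀ i, E i ≤ Δ) ∧ (∀ E, (Ψ.coeff E).natDegree ≤ b) ∧
      ∀ N ∈ T, MvPolynomial.eval₂ (Polynomial.evalRingHom ((N : ℤ) : F))
        (fun i => x N (τ i)) Ψ = 0) →
    ∃ Pi0 : Polynomial F, Pi0 ≠ 0 ∧ Pi0.natDegree ≤ C ∧
      ∀ J : Finset (Fin d'), J.card = n + 3 → ∃ Φ : MvPolynomial (Fin d') F, Φ ≠ 0 ∧
        (∀ E ∈ Φ.support, E.support ⊆ J ∧ ∀ i, E i ≤ D) ∧
        ∀ N ∈ T, Pi0.eval ((N : ℤ) : F) ≠ 0 → MvPolynomial.eval (v N) Φ = 0 := by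
  classical
  obtain ⟨D, hD⟩ := co_num (2 ^ (e + 1) * (Δ + 1 + 1) ^ (e + 1))
    ((Δ + 1 + 1) ^ (e + 1) * ((r + 1) * (n + 2))) (2 ^ (e + 1) * (b + 1) + (b + 1)) n
    (Nat.succ_le_of_lt (by positivity)) (Nat.succ_le_of_lt (by positivity))
  refine ⟨2 ^ (e + 1) * (b + 1), (n + 2) * D, ?_⟩
  intro F _ T x ρ v g hg hv hΨ
  let t : T → F := fun N => ((N : ℤ) : F)
  let xs : Fin (e + 1) → T → F := fun i N => (Fin.cons ((N : ℤ) : F) (x N) : Fin (e + 1) → F) i
  have haev : ∀ (p : Polynomial F) (N : T), Polynomial.aeval t p N = p.eval ((N : ℤ) : F) := by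
    intro p N
    rw [Polynomial.aeval_eq_sum_range, Polynomial.eval_eq_sum_range]
    simp [t]
  have haev' : ∀ (p : MvPolynomial (Fin (e + 1)) F) (N : T),
      MvPolynomial.aeval xs p N = MvPolynomial.eval (Fin.cons ((N : ℤ) : F) (x N)) p := by
    intro p N
    rw [MvPolynomial.aeval_def, MvPolynomial.eval₂_eq', MvPolynomial.eval_eq']
    simp [xs]
  have hsum : ∀ (Ψ : MvPolynomial (Fin (e + 1)) (Polynomial F)) (N : T),
      (∑ E ∈ Ψ.support, Polynomial.aeval t (Ψ.coeff E) * ∏ i, xs i ^ E i) N =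
      MvPolynomial.eval₂ (Polynomial.evalRingHom ((N : ℤ) : F))
        (Fin.cons ((N : ℤ) : F) (x N)) Ψ := by
    intro Ψ N
    rw [MvPolynomial.eval₂_eq']
    simp only [Finset.sum_apply, Pi.mul_apply, Finset.prod_apply, Pi.pow_apply, haev]
    rfl
  obtain ⟨Pi0, hPi0, hPid, hW⟩ := cnt_step1 (e + 1) n (Δ + 1) (b + 1) (F := F) t xs (by
    intro J hJ
    by_cases h0 : (0 : Fin (e + 1)) ∈ J
    · refine ⟨MvPolynomial.X 0 - MvPolynomial.C Polynomial.X, fun h => ?_, fun E hE => ?_,
        fun E => ?_, ?_⟩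
      · have := congrArg (MvPolynomial.eval fun _ => (Polynomial.X + 1 : Polynomial F)) h
        simp at this
      · rcases mem_union.mp (MvPolynomial.support_sub _ _ _ hE) with h | h
        · rw [MvPolynomial.support_X, mem_singleton] at h
          subst h
          refine ⟨Finsupp.support_single_subset.trans (by simpa using h0), fun i => ?_⟩
          rw [Finsupp.single_apply]
          split_ifs <;> omega
        · have := MvPolynomial.support_monomial_subset h
          rw [mem_singleton] at this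
          subst this
          simp
      · rw [MvPolynomial.coeff_sub, MvPolynomial.coeff_X', MvPolynomial.coeff_C]
        refine (Polynomial.natDegree_sub_le _ _).trans (max_le ?_ ?_) <;> split_ifs <;> simp
      · funext N
        rw [hsum]
        simp
    · let J' : Finset (Fin e) := univ.filter fun i => i.succ ∈ J
      have hJ' : J'.card = n + 1 := by
        rw [← hJ]
        refine card_bij (fun i _ => i.succ) (fun i hi => (mem_filter.mp hi).2)
          (fun i _ j _ h => Fin.succ_injective _ h) fun j hj => ?_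
        obtain ⟨i, rfl⟩ := Fin.exists_succ_eq.mpr (fun h : j = 0 => h0 (h ▸ hj))
        exact ⟨i, mem_filter.mpr ⟨mem_univ _, hj⟩, rfl⟩
      let τ := (J'.orderEmbOfFin hJ').toEmbedding
      let τ' : Fin (n + 1) → Fin (e + 1) := fun i => (τ i).succ
      have hτ' : Function.Injective τ' := fun i j h => τ.injective (Fin.succ_injective _ h)
      obtain ⟨Ψ, h0, h1, h2, h3⟩ := hΨ τ
      refine ⟨MvPolynomial.rename τ' Ψ, fun h => h0 (MvPolynomial.rename_injective τ' hτ'
        (h.trans (map_zero _).symm)), fun E hE => ?_, fun E => ?_, ?_⟩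
      · rw [MvPolynomial.support_rename_of_injective hτ', mem_image] at hE
        obtain ⟨E', hE', rfl⟩ := hE
        constructor
        · intro i hi
          obtain ⟨j, -, rfl⟩ := mem_image.mp (Finsupp.mapDomain_support hi)
          exact (mem_filter.mp (J'.orderEmbOfFin_mem hJ' j)).2
        · intro i
          by_cases hi : i ∈ Set.range τ'
          · obtain ⟨j, rfl⟩ := hi
            rw [Finsupp.mapDomain_apply hτ']
            exact (h1 E' hE' j).trans (Nat.le_succ _)
          · rw [Finsupp.mapDomain_of_notMem_range _ _ hi]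
            exact Nat.zero_le _
      · by_cases hE : E ∈ (MvPolynomial.rename τ' Ψ).support
        · rw [MvPolynomial.support_rename_of_injective hτ', mem_image] at hE
          obtain ⟨E', -, rfl⟩ := hE
          rw [MvPolynomial.coeff_rename_mapDomain _ hτ']
          exact (h2 E').trans (Nat.le_succ _)
        · rw [MvPolynomial.notMem_support_iff.mp hE]
          simp
      · funext N
        rw [hsum, MvPolynomial.eval₂_rename]
        exact h3 N N.2)
  refine ⟨Pi0, hPi0, hPid, fun J hJ => ?_⟩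
  obtain ⟨l0, hl0⟩ : J.Nonempty := card_pos.mp (by omega)
  obtain ⟨w, W, hWc, hWP⟩ := hW ((r + 1) * (n + 2) * D)
  let Λ : Finset (Fin d' → ℕ) :=
    Fintype.piFinset fun l => if l ∈ J.erase l0 then range (D + 1) else {0}
  have hJe : (J.erase l0).card = n + 2 := by rw [card_erase_of_mem hl0, hJ]; rfl
  have hΛc : Λ.card = (D + 1) ^ (n + 2) := by
    rw [Fintype.card_piFinset]
    have : ∀ l, (if l ∈ J.erase l0 then range (D + 1) else ({0} : Finset ℕ)).card =
        if l ∈ J.erase l0 then D + 1 else 1 := fun l => by split_ifs <;> simp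
    simp only [this]
    rw [prod_ite_mem, univ_inter, prod_const, hJe]
  have hΛ1 : ∀ E ∈ Λ, ∀ l, E l ≤ if l ∈ J.erase l0 then D else 0 := by
    intro E hE l
    have := Fintype.mem_piFinset.mp hE l
    split_ifs at this ⊢
    · exact Nat.le_of_lt_succ (mem_range.mp this)
    · simpa using this
  have hΛ2 : ∀ E ∈ Λ, ∑ l, E l ≤ (n + 2) * D := by
    intro E hE
    refine (sum_le_sum fun l _ => hΛ1 E hE l).trans ?_
    rw [sum_ite_mem, univ_inter, sum_const, hJe, smul_eq_mul]
  have hΛ3 : ∀ E ∈ Λ, E l0 = 0 := fun E hE => by simpa using hΛ1 E hE l0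
  let P : (Fin d' → ℕ) → MvPolynomial (Fin (e + 1)) F := fun E =>
    (∏ l, g l ^ E l) * g l0 ^ ((n + 2) * D - ∑ l, E l)
  have hPd : ∀ E ∈ Λ, (P E).totalDegree ≤ (r + 1) * (n + 2) * D := by
    intro E hE
    have h1 : ∀ l k, (g l ^ k).totalDegree ≤ k * r := fun l k =>
      (MvPolynomial.totalDegree_pow _ _).trans (Nat.mul_le_mul_left _ (hg l))
    refine (MvPolynomial.totalDegree_mul _ _).trans ?_
    have h2 := (MvPolynomial.totalDegree_finsetProd univ fun l => g l ^ E l).trans
      (sum_le_sum fun l _ => h1 l (E l))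
    have h3 := h1 l0 ((n + 2) * D - ∑ l, E l)
    rw [← sum_mul] at h2
    refine (add_le_add h2 h3).trans ?_
    rw [← add_mul, Nat.add_sub_cancel' (hΛ2 E hE)]
    nlinarith [Nat.zero_le ((n + 2) * D)]
  obtain ⟨lam, hlam, E₀, hE₀, hlam0⟩ := cnt_dep (F := F) Λ
    (fun E => Polynomial.aeval t Pi0 ^ w * MvPolynomial.aeval xs (P E)) W
    (fun E hE => hWP _ (hPd E hE)) (by
      rw [hΛc]
      refine hWc.trans_lt (lt_of_eq_of_lt ?_ hD)
      simp only [mul_assoc])
  let ex : (Fin d' → ℕ) → (Fin d' →₀ ℕ) := fun E =>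
    Finsupp.equivFunOnFinite.symm E + Finsupp.single l0 ((n + 2) * D - ∑ l, E l)
  have hex : ∀ E ∈ Λ, ex E = ex E₀ → E = E₀ := by
    intro E hE h
    funext l
    by_cases hl : l = l0
    · rw [hl, hΛ3 E hE, hΛ3 E₀ hE₀]
    · have := DFunLike.congr_fun h l
      simpa [ex, Finsupp.single_eq_of_ne hl] using this
  refine ⟨∑ E ∈ Λ, MvPolynomial.monomial (ex E) (lam E), ?_, ?_, ?_⟩
  · intro h
    have := congrArg (MvPolynomial.coeff (ex E₀)) h
    rw [MvPolynomial.coeff_sum, sum_eq_single E₀, MvPolynomial.coeff_monomial, if_pos rfl,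
      MvPolynomial.coeff_zero] at this
    · exact hlam0 this
    · intro E hE hne
      rw [MvPolynomial.coeff_monomial, if_neg fun h => hne (hex E hE h)]
    · intro h; exact absurd hE₀ h
  · intro E hE
    obtain ⟨E', hE', h⟩ := mem_biUnion.mp (MvPolynomial.support_sum hE)
    have := MvPolynomial.support_monomial_subset h
    rw [mem_singleton] at this
    subst this
    constructor
    · intro l hl
      by_contra hlJ
      have h1 := hΛ1 E' hE' l
      rw [if_neg fun h => hlJ (mem_of_mem_erase h)] at h1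
      have hl' : l ≠ l0 := fun h => hlJ (h ▸ hl0)
      refine Finsupp.mem_support_iff.mp hl ?_
      simpa [ex, Finsupp.single_eq_of_ne hl'] using h1
    · intro l
      by_cases hl : l = l0
      · subst hl
        simp [ex, hΛ3 E' hE']
      · have h1 := hΛ1 E' hE' l
        have : E' l ≤ D := by split_ifs at h1 <;> omega
        have h2 : ex E' l = E' l := by simp [ex, Finsupp.single_eq_of_ne hl]
        rw [h2]
        nlinarith
  · intro N hNT hN1
    have h1 := congrFun hlam ⟨N, hNT⟩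
    simp only [Finset.sum_apply, Pi.smul_apply, Pi.mul_apply, Pi.pow_apply, haev, haev',
      smul_eq_mul, Pi.zero_apply] at h1
    rw [map_sum]
    apply mul_left_cancel₀ (pow_ne_zero w hN1)
    rw [mul_zero, mul_sum, ← mul_zero (ρ N ^ ((n + 2) * D)), ← h1, mul_sum]
    refine sum_congr rfl fun E hE => ?_
    rw [MvPolynomial.eval_monomial, Finsupp.prod_add_index' (fun _ => pow_zero _)
      (fun _ _ _ => pow_add _ _ _), Finsupp.prod_single_index (h := fun l k => v N l ^ k) (pow_zero _),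
      Finsupp.prod_fintype _ _ (fun _ => pow_zero _)]
    simp only [Finsupp.coe_equivFunOnFinite_symm, P, map_mul, map_prod, map_pow]
    simp only [hv N hNT, mul_pow, prod_mul_distrib, prod_pow_eq_pow_sum]
    have h2 : ρ N ^ ((n + 2) * D) = ρ N ^ ((n + 2) * D - ∑ l, E l) * ρ N ^ ∑ l, E l := by
      rw [← pow_add, Nat.sub_add_cancel (hΛ2 E hE)]
    rw [h2]; ring

end Vale.Agent.P018
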