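import Vale.Agent.P018.Core

namespace Vale.Agent.P018

open NumberField Polynomial

/-- The roots of a monic irreducible integer polynomial of degree `e + 1` inside a number field. -/
structure GCtx (e : ℕ) (F : Type) [Field F] [NumberField F] where
  ϑ : Fin (e + 1) → 𝓞 F
  g : ℤ[X]
  hinj : Function.Injective ϑ
  hind : ∀ i (a : Fin (e + 1) → ℤ), a ≠ 0 → pv a (ϑ i) ≠ 0
  hmon : g.Monic
  hdeg : g.natDegree = e + 1
  hroot : ∀ i, aeval (ϑ i) g = 0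

/-- the determinant condition -/
def DetOK (d k n : ℕ) (y z : ℝ) : Prop :=
  ∃ α β : ℝ, 0 < α ∧ 0 < β ∧
    (((n : ℝ) + 3) / ((n : ℝ) + 2)) ^ (n + 2) * ((α * y + β * (d - k * y)) / d) ^ (n + 2)
      < z ^ (n + 1) * Qp n k α β

/-- the counting condition for vectors of height `X ^ (h / d)` -/
def Bal (d n : ℕ) (h z : ℝ) : Prop :=
  ∃ s : ℝ, 0 ≤ s ∧ h / d - z < s ∧ ((n : ℝ) + 2) * s + ((d : ℝ) - 1) * z < 1 ∧
    h - ((d : ℝ) - ((n : ℝ) + 2)) * s < 1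

/-- the range `p ≈ X ^ y` can be treated by counting `α` -/
def GoodA (d k : ℕ) (y : ℝ) : Prop :=
  ∃ (n : ℕ) (z : ℝ), 0 < z ∧ DetOK d k n y z ∧ Bal d n y z

/-- the range `p ≈ X ^ y` can be treated by counting `β` -/
def GoodB (d k : ℕ) (y : ℝ) : Prop :=
  ∃ (n : ℕ) (z : ℝ), 0 < z ∧ 2 * y < d ∧ DetOK d k n y z ∧ Bal d n (d - k * y) z

end Vale.Agent.P018
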