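import Vale.Agent.P018.R.Defs
import Vale.Agent.P018.Params

namespace Vale.Agent.P018

theorem num_det (d k : ℕ) (y z b L : ℝ) (hb : 0 < b) (h0 : 0 ≤ (y + b * (d - k * y)) / d)
    (hL : (y + b * (d - k * y)) / d ≤ L / d)
    (h : 64 / 27 * (L / d) ^ 3 < z ^ 2 * (3 * b * (1 + k * b))) : DetOK d k 1 y z := by
  refine ⟨1, b, one_pos, hb, ?_⟩
  rw [par_Qp_one, one_mul y, mul_one 3]
  refine lt_of_le_of_lt ?_ h
  have := pow_le_pow_left₀ h0 hL 3
  norm_num
  linarith

theorem good_five_three (y : ℝ) (hy : 1 ≤ y) (hyk : (3 : ℝ) * y ≤ 5) :
    GoodA 5 3 y ∨ GoodB 5 3 y := by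
  rcases le_or_gt y (113 / 100) with h0 | h0
  · exact Or.inl ⟨1, (1001 / 5000), by norm_num,
      num_det 5 3 y (1001 / 5000) (3 / 5) (11 / 5) (by norm_num) (by push_cast; linarith)
        (by push_cast; linarith) (by norm_num),
      (651 / 10000), by norm_num, by push_cast; linarith, by norm_num, by push_cast; linarith⟩
  rcases le_or_gt y (237 / 200) with h1 | h1
  · exact Or.inl ⟨1, (1803 / 10000), by norm_num,
      num_det 5 3 y (1803 / 10000) 1 (137 / 50) (by norm_num) (by push_cast; linarith)
        (by push_cast; linarith) (by norm_num),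
      (463 / 5000), by norm_num, by push_cast; linarith, by norm_num, by push_cast; linarith⟩
  rcases le_or_gt y (243 / 200) with h2 | h2
  · exact Or.inl ⟨1, (211 / 1250), by norm_num,
      num_det 5 3 y (211 / 1250) (6 / 5) (2919 / 1000) (by norm_num) (by push_cast; linarith)
        (by push_cast; linarith) (by norm_num),
      (269 / 2500), by norm_num, by push_cast; linarith, by norm_num, by push_cast; linarith⟩
  rcases le_or_gt y (123 / 100) with h3 | h3
  · exact Or.inl ⟨1, (809 / 5000), by norm_num,
      num_det 5 3 y (809 / 5000) (13 / 10) (5953 / 2000) (by norm_num) (by push_cast; linarith)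
        (by push_cast; linarith) (by norm_num),
      (1151 / 10000), by norm_num, by push_cast; linarith, by norm_num, by push_cast; linarith⟩
  rcases le_or_gt y (31 / 25) with h4 | h4
  · exact Or.inl ⟨1, (1581 / 10000), by norm_num,
      num_det 5 3 y (1581 / 10000) (7 / 5) (383 / 125) (by norm_num) (by push_cast; linarith)
        (by push_cast; linarith) (by norm_num),
      (1201 / 10000), by norm_num, by push_cast; linarith, by norm_num, by push_cast; linarith⟩
  rcases le_or_gt y (5 / 4) with h5 | h5
  · exact Or.inl ⟨1, (311 / 2000), by norm_num,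
      num_det 5 3 y (311 / 2000) (3 / 2) (79 / 25) (by norm_num) (by push_cast; linarith)
        (by push_cast; linarith) (by norm_num),
      (1251 / 10000), by norm_num, by push_cast; linarith, by norm_num, by push_cast; linarith⟩
  exact Or.inr ⟨1, (1529 / 10000), by norm_num, by push_cast; linarith,
    num_det 5 3 y (1529 / 10000) (31 / 20) (51 / 16) (by norm_num) (by push_cast; linarith)
      (by push_cast; linarith) (by norm_num),
    (1251 / 10000), by norm_num, by push_cast; linarith, by norm_num, by push_cast; linarith⟩

theorem good_seven_four (y : ℝ) (hy : 1 ≤ y) (hyk : (4 : ℝ) * y ≤ 7) :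
    GoodA 7 4 y ∨ GoodB 7 4 y := by
  rcases le_or_gt y (11 / 10) with h0 | h0
  · exact Or.inl ⟨1, (96 / 625), by norm_num,
      num_det 7 4 y (96 / 625) (2 / 5) (11 / 5) (by norm_num) (by push_cast; linarith)
        (by push_cast; linarith) (by norm_num),
      (251 / 10000), by norm_num, by push_cast; linarith, by norm_num, by push_cast; linarith⟩
  rcases le_or_gt y (233 / 200) with h1 | h1
  · exact Or.inl ⟨1, (91 / 625), by norm_num,
      num_det 7 4 y (91 / 625) (11 / 20) (253 / 100) (by norm_num) (by push_cast; linarith)
        (by push_cast; linarith) (by norm_num),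
      (413 / 10000), by norm_num, by push_cast; linarith, by norm_num, by push_cast; linarith⟩
  rcases le_or_gt y (49 / 40) with h2 | h2
  · exact Or.inl ⟨1, (691 / 5000), by norm_num,
      num_det 7 4 y (691 / 5000) (13 / 20) (1343 / 500) (by norm_num) (by push_cast; linarith)
        (by push_cast; linarith) (by norm_num),
      (563 / 10000), by norm_num, by push_cast; linarith, by norm_num, by push_cast; linarith⟩
  rcases le_or_gt y (259 / 200) with h3 | h3
  · exact Or.inl ⟨1, (1297 / 10000), by norm_num,
      num_det 7 4 y (1297 / 10000) (4 / 5) (581 / 200) (by norm_num) (by push_cast; linarith)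
        (by push_cast; linarith) (by norm_num),
      (369 / 5000), by norm_num, by push_cast; linarith, by norm_num, by push_cast; linarith⟩
  rcases le_or_gt y (277 / 200) with h4 | h4
  · exact Or.inl ⟨1, (1179 / 10000), by norm_num,
      num_det 7 4 y (1179 / 10000) (11 / 10) (3297 / 1000) (by norm_num) (by push_cast; linarith)
        (by push_cast; linarith) (by norm_num),
      (963 / 10000), by norm_num, by push_cast; linarith, by norm_num, by push_cast; linarith⟩
  rcases le_or_gt y (153 / 100) with h5 | h5
  · exact Or.inl ⟨1, (501 / 5000), by norm_num,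
      num_det 7 4 y (501 / 5000) (29 / 20) (1751 / 500) (by norm_num) (by push_cast; linarith)
        (by push_cast; linarith) (by norm_num),
      (663 / 5000), by norm_num, by push_cast; linarith, by norm_num, by push_cast; linarith⟩
  exact Or.inl ⟨1, (131 / 2000), by norm_num,
      num_det 7 4 y (131 / 2000) (29 / 10) (2041 / 500) (by norm_num) (by push_cast; linarith)
        (by push_cast; linarith) (by norm_num),
      (469 / 2500), by norm_num, by push_cast; linarith, by norm_num, by push_cast; linarith⟩

end Vale.Agent.P018
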