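import Vale.Agent.P018.R.WindowB
import Vale.Agent.P018.R.Num
import Vale.Agent.P018.Q.Main

namespace Vale.Agent.P018

open NumberField Filter Topology

theorem asymp_of_goodAB (e k' k : ℕ) (he : 1 ≤ e) (hk' : 1 ≤ k') (hk : 2 ≤ k) (hkk : k' ≤ k)
    (hkd : k' ≤ e + 1) (hgood : ∀ y : ℝ, 1 ≤ y → (k' : ℝ) * y ≤ ((e + 1 : ℕ) : ℝ) →
      GoodA (e + 1) k' y ∨ GoodB (e + 1) k' y) : Asymp (e + 1) k :=
  asymp_of_gcore e k' k hk hkk fun _ _ _ c A =>
    core_of_windows he c.ϑ c.hind k' A hk' hkd fun y hy hyk =>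
      (hgood y hy hyk).elim (windowA he c.ϑ c.hinj c.hind k' A hk' y hy hyk)
        (windowB he c k' A hk' y hy hyk)

theorem asymp53 (k : ℕ) (hk : 3 ≤ k) : Asymp 5 k :=
  asymp_of_goodAB 4 3 k (by norm_num) (by norm_num) (by omega) hk (by norm_num) fun y hy hyk =>
    good_five_three y hy (by push_cast at hyk; linarith)

theorem asymp74 : Asymp 7 4 :=
  asymp_of_goodAB 6 4 4 (by norm_num) (by norm_num) (by norm_num) le_rfl (by norm_num)
    fun y hy hyk => good_seven_four y hy (by push_cast at hyk; linarith)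

theorem asymp4 (k : ℕ) (hk : 2 ≤ k) : Asymp 4 k :=
  asymp_of_gcore 3 2 k hk hk fun _ _ _ c A =>
    core42 ⟨c.ϑ, c.g, c.hinj, c.hind, c.hmon, c.hdeg, c.hroot⟩ A

theorem asymp_gt_half (d k : ℕ) (hd : 5 ≤ d) (hk : d < 2 * k) : Asymp d k := by
  rcases Nat.eq_or_lt_of_le hd with rfl | h
  · exact asymp53 k (by omega)
  · by_cases h7 : d = 7 ∧ k = 4
    · obtain ⟨rfl, rfl⟩ := h7
      exact asymp74
    · exact asymp_half d k h hk h7

theorem asymp_sub_two (d k : ℕ) (hd : 4 ≤ d) (hk : d ≤ k + 2) : Asymp d k := by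
  rcases Nat.eq_or_lt_of_le hd with rfl | h
  · exact asymp4 k (by omega)
  · exact asymp_gt_half d k h (by omega)

end Vale.Agent.P018
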