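import Vale.Agent.P018.R.Defs
import Vale.Agent.P018.Q.Pt

namespace Vale.Agent.P018

open NumberField Polynomial Filter Topology

variable {F : Type} [Field F] [NumberField F]

/-- conjugates -/
noncomputable def GCtx.cj {e0 : ℕ} (c : GCtx e0 F) (a : Fin (e0 + 1) → ℤ) (i : Fin (e0 + 1)) : 𝓞 F :=
  pv a (c.ϑ i)

theorem gm_exists_pow {e0 : ℕ} (c : GCtx e0 F) (n : ℕ) : ∃ e : Fin (e0 + 1) → ℤ, ∀ i, c.cj e i = c.ϑ i ^ n := by
  have hg1 : c.g ≠ 1 := by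
    intro h
    have := c.hdeg
    rw [h, natDegree_one] at this
    omega
  have hlt : (X ^ n %ₘ c.g).natDegree < e0 + 1 := c.hdeg ▸ natDegree_modByMonic_lt _ c.hmon hg1
  refine ⟨fun l => (X ^ n %ₘ c.g).coeff l, fun i => ?_⟩
  have h1 := aeval_modByMonic_eq_self_of_root (p := X ^ n) (c.hroot i)
  rw [aeval_eq_sum_range' hlt, map_pow, aeval_X, ← Fin.sum_univ_eq_sum_range
    (fun l => (X ^ n %ₘ c.g).coeff l • c.ϑ i ^ l)] at h1
  rw [← h1, GCtx.cj, pv]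
  simp only [zsmul_eq_mul]

/-- multiplication table -/
theorem GCtx.gm_exists_mul {e0 : ℕ} (c : GCtx e0 F) : ∃ (μ : (Fin (e0 + 1) → ℤ) →ₗ[ℤ] (Fin (e0 + 1) → ℤ) →ₗ[ℤ] (Fin (e0 + 1) → ℤ))
    (C : ℝ), 1 ≤ C ∧ (∀ a b i, c.cj (μ a b) i = c.cj a i * c.cj b i) ∧
    ∀ (a b : Fin (e0 + 1) → ℤ) (A B : ℝ), (∀ l, |(a l : ℝ)| ≤ A) → (∀ l, |(b l : ℝ)| ≤ B) →
      ∀ l, |(μ a b l : ℝ)| ≤ C * A * B := by
  choose e he using gm_exists_pow c
  let μ : (Fin (e0 + 1) → ℤ) →ₗ[ℤ] (Fin (e0 + 1) → ℤ) →ₗ[ℤ] (Fin (e0 + 1) → ℤ) :=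
    LinearMap.mk₂ ℤ (fun a b m => ∑ k : Fin (e0 + 1), ∑ l : Fin (e0 + 1), a k * b l * e (k + l) m)
      (fun a a' b => by funext m; simp only [Pi.add_apply, add_mul, Finset.sum_add_distrib])
      (fun r a b => by
        funext m; simp only [Pi.smul_apply, smul_eq_mul, Finset.mul_sum, mul_assoc])
      (fun a b b' => by
        funext m; simp only [Pi.add_apply, mul_add, add_mul, Finset.sum_add_distrib])
      (fun r a b => by
        funext m; simp only [Pi.smul_apply, smul_eq_mul, Finset.mul_sum, mul_assoc, mul_left_comm])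
  have hμ : ∀ a b m, μ a b m = ∑ k : Fin (e0 + 1), ∑ l : Fin (e0 + 1), a k * b l * e (k + l) m :=
    fun _ _ _ => rfl
  have hS : ∀ m, ∑ k : Fin (e0 + 1), ∑ l : Fin (e0 + 1), |(e (k + l) m : ℝ)| ≤
      ∑ m, ∑ k : Fin (e0 + 1), ∑ l : Fin (e0 + 1), |(e (k + l) m : ℝ)| := fun m =>
    Finset.single_le_sum (f := fun m => ∑ k : Fin (e0 + 1), ∑ l : Fin (e0 + 1), |(e (k + l) m : ℝ)|)
      (fun _ _ => by positivity) (Finset.mem_univ m)
  refine ⟨μ, 1 + ∑ m, ∑ k : Fin (e0 + 1), ∑ l : Fin (e0 + 1), |(e (k + l) m : ℝ)|,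
    le_add_of_nonneg_right (by positivity), fun a b i => ?_, fun a b A B ha hb m => ?_⟩
  · have h1 : ∀ k l : Fin (e0 + 1), ∑ m : Fin (e0 + 1), (e (k + l) m : 𝓞 F) * c.ϑ i ^ (m : ℕ)
        = c.ϑ i ^ (k : ℕ) * c.ϑ i ^ (l : ℕ) := fun k l => by
      rw [← pow_add, ← he]; rfl
    simp only [GCtx.cj, pv, hμ]
    push_cast
    rw [Finset.sum_mul_sum]
    simp only [Finset.sum_mul]
    rw [Finset.sum_comm]
    refine Finset.sum_congr rfl fun k _ => ?_
    rw [Finset.sum_comm]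
    refine Finset.sum_congr rfl fun l _ => ?_
    simp only [mul_assoc, ← Finset.mul_sum, h1]
    ring
  · have hA : 0 ≤ A := (abs_nonneg _).trans (ha 0)
    have hB : 0 ≤ B := (abs_nonneg _).trans (hb 0)
    rw [hμ]
    push_cast
    calc |∑ k : Fin (e0 + 1), ∑ l : Fin (e0 + 1), (a k : ℝ) * b l * e (k + l) m|
        ≤ ∑ k : Fin (e0 + 1), ∑ l : Fin (e0 + 1), A * B * |(e (k + l) m : ℝ)| := by
          refine (Finset.abs_sum_le_sum_abs _ _).trans (Finset.sum_le_sum fun k _ => ?_)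
          refine (Finset.abs_sum_le_sum_abs _ _).trans (Finset.sum_le_sum fun l _ => ?_)
          rw [abs_mul, abs_mul]
          gcongr
          exacts [ha k, hb l]
      _ = A * B * ∑ k : Fin (e0 + 1), ∑ l : Fin (e0 + 1), |(e (k + l) m : ℝ)| := by
          simp only [Finset.mul_sum]
      _ ≤ A * B * (1 + ∑ m, ∑ k : Fin (e0 + 1), ∑ l : Fin (e0 + 1), |(e (k + l) m : ℝ)|) := by
          gcongr
          linarith [hS m]
      _ = _ := by ring

theorem gm_cj_single {e0 : ℕ} (c : GCtx e0 F) (l : Fin (e0 + 1)) (n : ℤ) (i : Fin (e0 + 1)) :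
    c.cj (Pi.single l n) i = (n : 𝓞 F) * c.ϑ i ^ (l : ℕ) := by
  rw [GCtx.cj, pv, Finset.sum_eq_single l]
  · simp
  · intro k _ hk; simp [hk]
  · simp

/-- the norm is a rational integer, and there is an adjoint element -/
theorem GCtx.gm_exists_norm {e0 : ℕ} (c : GCtx e0 F) (a : Fin (e0 + 1) → ℤ) : ∃ (n : ℤ) (a' : Fin (e0 + 1) → ℤ),
    ∏ i, c.cj a i = (n : 𝓞 F) ∧ ∀ i, c.cj a i * c.cj a' i = (n : 𝓞 F) := by
  obtain ⟨μ, C, -, hμ, -⟩ := c.gm_exists_mul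
  let A : Matrix (Fin (e0 + 1)) (Fin (e0 + 1)) ℤ := LinearMap.toMatrix' (μ a)
  have hA : ∀ x, A.mulVec x = μ a x := fun x => by
    rw [← Matrix.toLin'_apply, Matrix.toLin'_toMatrix']
  have hV : Matrix.vandermonde c.ϑ * (Int.castRingHom (𝓞 F)).mapMatrix A
      = Matrix.diagonal (c.cj a) * Matrix.vandermonde c.ϑ := by
    ext1 i l
    have h1 := hμ a (Pi.single l 1) i
    rw [gm_cj_single, Int.cast_one, one_mul, ← hA, Matrix.mulVec_single_one] at h1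
    rw [Matrix.diagonal_mul, Matrix.vandermonde_apply, ← h1, Matrix.mul_apply, GCtx.cj, pv]
    refine Finset.sum_congr rfl fun m _ => ?_
    simp [mul_comm]
  have hd := congrArg Matrix.det hV
  rw [Matrix.det_mul, Matrix.det_mul, Matrix.det_diagonal, ← RingHom.map_det, mul_comm] at hd
  have h0 : (Matrix.vandermonde c.ϑ).det ≠ 0 := Matrix.det_vandermonde_ne_zero_iff.mpr c.hinj
  refine ⟨A.det, A.adjugate.mulVec (Pi.single 0 1), (mul_right_cancel₀ h0 hd).symm, fun i => ?_⟩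
  rw [← hμ, ← hA, Matrix.mulVec_mulVec, Matrix.mul_adjugate, Matrix.smul_mulVec,
    Matrix.one_mulVec, ← Pi.single_smul, gm_cj_single]
  simp

/-- coordinates in terms of conjugates -/
theorem GCtx.gm_exists_coord {e0 : ℕ} (c : GCtx e0 F) : ∃ (d : ℤ) (e : Fin (e0 + 1) → Fin (e0 + 1) → 𝓞 F), d ≠ 0 ∧
    ∀ (K : Type) [CommRing K] (ψ : 𝓞 F →+* K) (x : Fin (e0 + 1) → K) (l : Fin (e0 + 1)),
      (d : K) * x l = ∑ i, ψ (e l i) * ∑ k, x k * ψ (c.ϑ i) ^ (k : ℕ) := by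
  have h0 : (Matrix.vandermonde c.ϑ).det ≠ 0 := Matrix.det_vandermonde_ne_zero_iff.mpr c.hinj
  obtain ⟨d, hd, w, hw⟩ := (Algebra.IsAlgebraic.isAlgebraic (R := ℤ)
    (Matrix.vandermonde c.ϑ).det).exists_nonzero_dvd (mem_nonZeroDivisors_of_ne_zero h0)
  refine ⟨d, fun l i => w * (Matrix.vandermonde c.ϑ).adjugate l i, hd, fun K _ ψ x l => ?_⟩
  have h1 : ∀ k : Fin (e0 + 1), ∑ i, ψ (w * (Matrix.vandermonde c.ϑ).adjugate l i) * ψ (c.ϑ i) ^ (k : ℕ)
      = if l = k then (d : K) else 0 := by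
    intro k
    have h2 := congrFun (congrFun (Matrix.adjugate_mul (Matrix.vandermonde c.ϑ)) l) k
    rw [Matrix.mul_apply] at h2
    simp only [← map_pow, ← map_mul, ← map_sum, mul_assoc, ← Finset.mul_sum]
    simp only [Matrix.vandermonde_apply] at h2
    rw [h2, Matrix.smul_apply, Matrix.one_apply]
    split_ifs
    · rw [smul_eq_mul, mul_one, mul_comm, ← hw]; simp
    · simp
  simp only [Finset.mul_sum]
  rw [Finset.sum_comm]
  simp only [mul_left_comm _ (x _), ← Finset.mul_sum, h1]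
  simp [mul_comm]

/-- `β` has (almost) integral coordinates -/
theorem GCtx.beta_coords {e : ℕ} (c : GCtx e F) (k : ℕ) : ∃ (d0 : ℤ) (E : Fin (e + 1) → Fin (e + 1) → 𝓞 F),
    d0 ≠ 0 ∧ (∀ (K : Type) [CommRing K] (ψ : 𝓞 F →+* K) (x : Fin (e + 1) → K) (l : Fin (e + 1)),
      (d0 : K) * x l = ∑ i, ψ (E l i) * ∑ j, x j * ψ (c.ϑ i) ^ (j : ℕ)) ∧
    (1 ≤ e → ∀ (N : ℤ) (p : ℕ) (a : Fin (e + 1) → ℤ) (m : 𝓞 F) (β : Fin (e + 1) → 𝓞 F),
      PtData c.ϑ k N p a m β → ∃ b : Fin (e + 1) → ℤ,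
        (∀ i, pv b (c.ϑ i) = (d0 : 𝓞 F) * β i) ∧ ∀ l, (b l : 𝓞 F) = ∑ i, E l i * β i) := by
  obtain ⟨μ, -, -, hμ, -⟩ := c.gm_exists_mul
  obtain ⟨d, E, hd, hE⟩ := c.gm_exists_coord
  refine ⟨d, E, hd, hE, fun he N p a m β h => ?_⟩
  obtain ⟨e', rfl⟩ := Nat.exists_eq_add_of_le' he
  have hp0 : (p : 𝓞 F) ≠ 0 := Nat.cast_ne_zero.2 (Nat.one_le_iff_ne_zero.mp h.hp)
  obtain ⟨n, a', hn, ha'⟩ := c.gm_exists_norm a
  have hα : ∀ i, c.cj a i ≠ 0 := fun i => c.hind i a h.ha0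
  have hm : ∏ i, c.cj a i = p * m := h.hm
  have hβ : ∀ i, c.cj a i ^ k * β i = m ^ k * ((N : 𝓞 F) - c.ϑ i) := h.hβ
  have hpow : ∀ j : ℕ, ∃ cc, ∀ i, c.cj cc i = ((N : 𝓞 F) - c.ϑ i) * c.cj a' i ^ j := by
    intro j
    induction j with
    | zero =>
      refine ⟨Fin.cons N (Fin.cons (-1) 0), fun i => ?_⟩
      simp only [GCtx.cj, pv, Fin.sum_univ_succ, Fin.cons_zero, Fin.cons_succ]
      simp [sub_eq_add_neg]
    | succ j ih =>
      obtain ⟨cc, hcc⟩ := ih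
      exact ⟨μ cc a', fun i => by rw [hμ, hcc, pow_succ, mul_assoc]⟩
  obtain ⟨cc, hcc⟩ := hpow k
  have h1 : ∀ i, c.cj cc i = (p : 𝓞 F) ^ k * β i := by
    intro i
    refine mul_left_cancel₀ (pow_ne_zero k (hα i)) ?_
    rw [hcc, mul_left_comm, ← mul_pow, ha', ← hn, hm, mul_left_comm, hβ, mul_pow]
    ring
  have h2 : ∀ l, ((d * cc l : ℤ) : 𝓞 F) = (p : 𝓞 F) ^ k * ∑ i, E l i * β i := by
    intro l
    have h3 := hE (𝓞 F) (RingHom.id _) (fun k => (cc k : 𝓞 F)) l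
    push_cast
    rw [h3, Finset.mul_sum]
    refine Finset.sum_congr rfl fun i _ => ?_
    have h4 := h1 i
    rw [GCtx.cj, pv] at h4
    simp only [RingHom.id_apply, h4]
    ring
  have h3 : ∀ l, (p : ℤ) ^ k ∣ d * cc l := fun l =>
    pt_int_dvd (F := F) ⟨∑ i, E l i * β i, by rw [h2]; push_cast; rfl⟩
  choose b hb using h3
  have h4 : ∀ l, (b l : 𝓞 F) = ∑ i, E l i * β i := fun l => by
    refine mul_left_cancel₀ (pow_ne_zero k hp0) ?_
    rw [← h2, hb]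
    push_cast
    rfl
  refine ⟨b, fun i => ?_, h4⟩
  refine mul_left_cancel₀ (pow_ne_zero k hp0) ?_
  rw [mul_left_comm, ← h1, GCtx.cj, pv, pv, Finset.mul_sum, Finset.mul_sum]
  refine Finset.sum_congr rfl fun l _ => ?_
  have h5 := congrArg (fun z : ℤ => (z : 𝓞 F)) (hb l)
  push_cast at h5
  rw [← mul_assoc, ← h5, mul_assoc]

/-- reduction to the number field estimate -/
theorem asymp_of_gcore (e k' k : ℕ) (hk : 2 ≤ k) (hkk : k' ≤ k)
    (h : ∀ (F : Type) [Field F] [NumberField F] (c : GCtx e F) (A : ℕ),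
      Tendsto (fun X : ℝ => ((Bad c.ϑ k' A Set.univ X).card : ℝ) / X) atTop (𝓝 0)) :
    Asymp (e + 1) k := by
  intro f hirr hd hloc
  obtain ⟨F, _, _, ϑ, hinj, hind, hprod⟩ := exists_roots f hirr e hd
  have hf0 : f ≠ 0 := by rintro rfl; simp at hd
  have hlc : f.leadingCoeff ≠ 0 := leadingCoeff_ne_zero.mpr hf0
  have hG : f.integralNormalization.map (Int.castRingHom (𝓞 F)) = ∏ i, (X - C (ϑ i)) := by
    refine eq_of_infinite_eval_eq _ _ (Set.infinite_of_injective_forall_mem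
      (f := fun n : ℤ => ((f.leadingCoeff * n : ℤ) : 𝓞 F))
      (fun n n' e => mul_left_cancel₀ hlc (Int.cast_injective e)) fun n => ?_)
    have h1 := integralNormalization_eval₂_leadingCoeff_mul (p := f) (by omega) (RingHom.id ℤ) n
    rw [eval₂_id, eval₂_id, hd] at h1
    rw [Set.mem_ofPred_eq, eval_intCast_map, eval_prod]
    simp only [eval_sub, eval_X, eval_C, hprod]
    exact congrArg (fun z : ℤ => (z : 𝓞 F)) h1
  let c : GCtx e F := ⟨ϑ, f.integralNormalization, hinj, hind, monic_integralNormalization hf0,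
    natDegree_integralNormalization.trans hd, fun i => by
      rw [aeval_def, ← eval_map, algebraMap_int_eq, hG, eval_prod]
      exact Finset.prod_eq_zero (Finset.mem_univ i) (by simp)⟩
  exact sieve f k hk hirr hloc (pt_tail f e hd k' k hkk ϑ hprod (h F c))

end Vale.Agent.P018
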