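import Vale.Agent.P018.R.Defs

namespace Vale.Agent.P018

open NumberField Finset Filter Topology

theorem rw_params (d k n : ℕ) (hd : 1 ≤ d) (y z η0 : ℝ) (hy : 1 ≤ y) (hyk : (k : ℝ) * y ≤ d)
    (hz : 0 < z) (hη0 : 0 < η0) (h : DetOK d k n y z) :
    ∃ (a b : ℕ) (W η : ℝ), 0 ≤ W ∧ 0 < η ∧ η < η0 ∧ 0 < Qp n k a b ∧
      (W + (((n : ℝ) + 1) * z + 1)) ^ (n + 3) / (((n : ℝ) + 3) * z ^ (n + 1) * Qp n k a b) <
        W - (((a + k * n : ℕ) : ℝ) * (y + η) / d + ((b + n : ℕ) : ℝ) * (1 - k * (y - η) / d)) := by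
  obtain ⟨α, β, hα, hβ, h3⟩ := h
  have hd0 : (0 : ℝ) < d := by exact_mod_cast hd
  have hk0 : (0 : ℝ) ≤ k := Nat.cast_nonneg k
  have hn0 : (0 : ℝ) ≤ n := Nat.cast_nonneg n
  set σ : ℝ := (α * y + β * (d - k * y)) / d with hσ
  have hσ0 : 0 < σ := by
    have : 0 ≤ β * (d - k * y) := mul_nonneg hβ.le (by linarith)
    have : 0 < α * y := by positivity
    positivity
  set ω : ℝ := ((n : ℝ) + 3) / ((n : ℝ) + 2) * σ with hω
  have hω0 : 0 < ω := by positivity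
  set Q : ℝ := Qp n k α β with hQ
  have hQ0 : 0 < Q := par_Qp_pos n k hα hβ
  have h3' : ω ^ (n + 2) < z ^ (n + 1) * Q := by rw [hω, mul_pow]; exact h3
  set c : ℝ := ((n : ℝ) + 1) * z + 1 with hc
  have hc0 : 0 < c := by positivity
  let F : ℝ → ℝ := fun s =>
    ω - ((α + (1 + k * n) * s) * (y + s) / d + (β + (1 + n) * s) * (1 - k * (y - s) / d)) -
      (ω + c * s) ^ (n + 3) / (((n : ℝ) + 3) * z ^ (n + 1) * Q)
  have hF : Continuous F := by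
    simp only [F]; fun_prop
  have hF0 : 0 < F 0 := by
    have e1 : α * y / d + β * (1 - k * y / d) = σ := by
      rw [hσ]; field_simp
    have e2 : ω - σ = ω / ((n : ℝ) + 3) := by
      rw [hω]; field_simp; ring
    simp only [F, mul_zero, add_zero, sub_zero]
    rw [e1, e2, sub_pos, div_lt_div_iff₀ (by positivity) (by positivity)]
    have : ω ^ (n + 3) = ω * ω ^ (n + 2) := by ring
    rw [this]
    have h4 : 0 < ω * ((n : ℝ) + 3) := by positivity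
    nlinarith [mul_lt_mul_of_pos_left h3' h4]
  have ev1 : ∀ᶠ s in 𝓝 (0 : ℝ), 0 < F s := hF.continuousAt.eventually (lt_mem_nhds hF0)
  have ev2 : ∀ᶠ s in 𝓝 (0 : ℝ), s < η0 := gt_mem_nhds hη0
  have ev : ∀ᶠ s in 𝓝[>] (0 : ℝ), _ :=
    ((ev1.and ev2).filter_mono nhdsWithin_le_nhds).and self_mem_nhdsWithin
  obtain ⟨s, ⟨hs1, hs2⟩, hs0⟩ := ev.exists
  have hs0 : 0 < s := hs0
  set t : ℝ := s⁻¹ with ht
  have ht0 : 0 < t := by positivity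
  have hst : s * t = 1 := mul_inv_cancel₀ hs0.ne'
  have ha1 : α * t ≤ (⌈α * t⌉₊ : ℝ) := Nat.le_ceil _
  have hb1 : β * t ≤ (⌈β * t⌉₊ : ℝ) := Nat.le_ceil _
  have ha2 : (⌈α * t⌉₊ : ℝ) ≤ α * t + 1 := (Nat.ceil_lt_add_one (by positivity)).le
  have hb2 : (⌈β * t⌉₊ : ℝ) ≤ β * t + 1 := (Nat.ceil_lt_add_one (by positivity)).le
  have hQab : t ^ (n + 2) * Q ≤ Qp n k (⌈α * t⌉₊ : ℝ) (⌈β * t⌉₊ : ℝ) := by
    rw [hQ, ← par_Qp_smul]
    exact par_Qp_mono n k (by positivity) (by positivity) ha1 hb1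
  have hQt : 0 < t ^ (n + 2) * Q := by positivity
  refine ⟨⌈α * t⌉₊, ⌈β * t⌉₊, ω * t, s, by positivity, hs0, hs2,
    lt_of_lt_of_le hQt hQab, ?_⟩
  have hw : 0 ≤ 1 - k * (y - s) / d := by
    rw [sub_nonneg, div_le_one hd0]
    nlinarith [mul_nonneg hk0 hs0.le]
  have hys : 0 ≤ (y + s) / d := by positivity
  have hL : (ω * t + c) ^ (n + 3) /
      (((n : ℝ) + 3) * z ^ (n + 1) * Qp n k (⌈α * t⌉₊ : ℝ) (⌈β * t⌉₊ : ℝ)) ≤
      t * ((ω + c * s) ^ (n + 3) / (((n : ℝ) + 3) * z ^ (n + 1) * Q)) := by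
    have e : ω * t + c = t * (ω + c * s) := by
      have : t * (c * s) = c * (s * t) := by ring
      rw [mul_add, this, hst]; ring
    calc _ ≤ (ω * t + c) ^ (n + 3) / (((n : ℝ) + 3) * z ^ (n + 1) * (t ^ (n + 2) * Q)) := by
          gcongr
      _ = _ := by
          rw [e, mul_pow]; field_simp; ring
  have hR : t * (ω - ((α + (1 + k * n) * s) * (y + s) / d +
      (β + (1 + n) * s) * (1 - k * (y - s) / d))) ≤
      ω * t - (((⌈α * t⌉₊ + k * n : ℕ) : ℝ) * (y + s) / d +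
        ((⌈β * t⌉₊ + n : ℕ) : ℝ) * (1 - k * (y - s) / d)) := by
    have e1 : t * (α + (1 + k * n) * s) = α * t + 1 + k * n := by
      have : t * ((1 + k * n) * s) = (1 + k * n) * (s * t) := by ring
      rw [mul_add, this, hst]; ring
    have e2 : t * (β + (1 + n) * s) = β * t + 1 + n := by
      have : t * ((1 + n) * s) = (1 + n) * (s * t) := by ring
      rw [mul_add, this, hst]; ring
    have e3 : t * (ω - ((α + (1 + k * n) * s) * (y + s) / d +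
      (β + (1 + n) * s) * (1 - k * (y - s) / d))) = ω * t -
        ((t * (α + (1 + k * n) * s)) * ((y + s) / d) +
          (t * (β + (1 + n) * s)) * (1 - k * (y - s) / d)) := by ring
    rw [e3, e1, e2, mul_div_assoc _ (y + s)]
    push_cast
    gcongr
  have hFs : 0 < t * F s := mul_pos ht0 hs1
  simp only [F] at hFs
  rw [mul_sub] at hFs
  linarith

variable {F : Type} [Field F] [NumberField F]

theorem rel_window {e : ℕ} (ϑ : Fin (e + 1) → 𝓞 F) (hinj : Function.Injective ϑ)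
    (hind : ∀ i (a : Fin (e + 1) → ℤ), a ≠ 0 → pv a (ϑ i) ≠ 0) (k A n : ℕ) (hk : 1 ≤ k)
    (y z η0 : ℝ) (hy : 1 ≤ y) (hyk : (k : ℝ) * y ≤ ((e + 1 : ℕ) : ℝ)) (hz : 0 < z) (hη0 : 0 < η0)
    (h : DetOK (e + 1) k n y z) :
    ∃ (η κ : ℝ) (Δ b : ℕ), 0 < η ∧ η < η0 ∧ 0 < κ ∧ κ ≤ 1 ∧ ∀ᶠ X : ℝ in atTop, ∀ (T : Finset ℤ)
      (p : ℤ → ℕ) (av : ℤ → Fin (e + 1) → ℤ) (m : ℤ → 𝓞 F) (β : ℤ → Fin (e + 1) → 𝓞 F)
      (l0 : Fin (e + 1)), (∀ N ∈ T, PtData ϑ k N (p N) (av N) (m N) (β N)) →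
      (∀ N ∈ T, X ≤ |(N : ℝ)| ∧ |(N : ℝ)| ≤ A * X ∧ X ^ (y - η) ≤ p N ∧ (p N : ℝ) ≤ X ^ (y + η)) →
      (∀ N ∈ T, ∀ l, |(av N l : ℝ)| ≤ |(av N l0 : ℝ)|) →
      (∀ N ∈ T, ∀ N' ∈ T, ∀ l,
        |(av N l : ℝ) / av N l0 - (av N' l : ℝ) / av N' l0| ≤ κ * X ^ (-z)) →
      ∀ τ : Fin (n + 1) ↪ Fin e, ∃ Ψ : MvPolynomial (Fin (n + 1)) (Polynomial F), Ψ ≠ 0 ∧
        (∀ E ∈ Ψ.support, ∀ i, E i ≤ Δ) ∧ (∀ E, (Ψ.coeff E).natDegree ≤ b) ∧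
        ∀ N ∈ T, MvPolynomial.eval₂ (Polynomial.evalRingHom ((N : ℤ) : F))
          (fun i => pv (av N) (ϑ (τ i).succ : F) / pv (av N) (ϑ 0 : F)) Ψ = 0 := by
  classical
  obtain ⟨a, b, W, η, hW, hη, hηη, hQ, hH⟩ :=
    rw_params (e + 1) k n (by omega) y z η0 hy hyk hz hη0 h
  obtain ⟨G, hA, hB, hred, hG⟩ := exists_family n k a b hk
  have hcard : (0 : ℝ) < G.card := by
    have : (0 : ℝ) < ((n + 2).factorial : ℝ) * G.card := hQ.trans_le hG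
    exact pos_of_mul_pos_left this (by positivity) |> fun h => by
      rcases (Nat.cast_nonneg (α := ℝ) G.card).lt_or_eq with h' | h'
      · exact h'
      · rw [← h'] at this; simp at this
  have H : (G.card : ℝ) * (((a + k * n : ℕ) : ℝ) * (y + η) / ((e : ℝ) + 1) +
      ((b + n : ℕ) : ℝ) * (1 - k * (y - η) / ((e : ℝ) + 1))) <
      W * G.card - (W + (((n : ℝ) + 1) * z + 1)) ^ (n + 3) /
        (((n + 3).factorial : ℝ) * z ^ (n + 1)) := by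
    have hd : (((e + 1 : ℕ) : ℝ)) = (e : ℝ) + 1 := by push_cast; ring
    rw [hd] at hH
    set U := (W + (((n : ℝ) + 1) * z + 1)) ^ (n + 3) with hU
    have hU0 : 0 ≤ U := by positivity
    have h1 : U / (((n + 3).factorial : ℝ) * z ^ (n + 1)) ≤
        G.card * (U / (((n : ℝ) + 3) * z ^ (n + 1) * Qp n k a b)) := by
      rw [← mul_div_assoc, div_le_div_iff₀ (by positivity) (by positivity)]
      have h2 : (((n + 3).factorial : ℕ) : ℝ) = ((n : ℝ) + 3) * ((n + 2).factorial : ℝ) := by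
        rw [Nat.factorial_succ (n + 2)]; push_cast; ring
      rw [h2]
      calc U * (((n : ℝ) + 3) * z ^ (n + 1) * Qp n k a b)
          ≤ U * (((n : ℝ) + 3) * z ^ (n + 1) * (((n + 2).factorial : ℝ) * G.card)) := by gcongr
        _ = _ := by ring
    have h3 := mul_lt_mul_of_pos_left hH hcard
    nlinarith
  obtain ⟨κ, hκ, hκ1, hrel⟩ := box_relation ϑ hinj hind n k (a + k * n) (b + n) G hA hB hred
    z W (y - η) (y + η) A hz hW (Nat.cast_nonneg _) H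
  exact ⟨η, κ, _, _, hη, hηη, hκ, hκ1, hrel⟩

/-- the data attached to the elements of `Bad` -/
theorem bad_data {e : ℕ} (ϑ : Fin (e + 1) → 𝓞 F) (k A : ℕ) (hk : 1 ≤ k) (y1 y2 X : ℝ) (hX : 1 < X) :
    ∃ (p : ℤ → ℕ) (av : ℤ → Fin (e + 1) → ℤ) (m : ℤ → 𝓞 F) (β : ℤ → Fin (e + 1) → 𝓞 F),
      ∀ N ∈ Bad ϑ k A (Set.Icc y1 y2) X, PtData ϑ k N (p N) (av N) (m N) (β N) ∧
        ((p N).Prime ∧ X ≤ p N ∧ |N| ≤ A * p N) ∧
        (X ≤ |(N : ℝ)| ∧ |(N : ℝ)| ≤ A * X ∧ X ^ y1 ≤ p N ∧ (p N : ℝ) ≤ X ^ y2) := by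
  classical
  have hex : ∀ N ∈ Bad ϑ k A (Set.Icc y1 y2) X, ∃ (p : ℕ) (av : Fin (e + 1) → ℤ) (m : 𝓞 F)
      (β : Fin (e + 1) → 𝓞 F), PtData ϑ k N p av m β ∧ (p.Prime ∧ X ≤ p ∧ |N| ≤ A * p) ∧
      (X ≤ |(N : ℝ)| ∧ |(N : ℝ)| ≤ A * X ∧ X ^ y1 ≤ p ∧ (p : ℝ) ≤ X ^ y2) := by
    intro N hN
    rw [Bad, Finset.mem_filter, Finset.mem_Icc] at hN
    obtain ⟨⟨hN1, hN2⟩, hN3, p, hp, hXp, hlog, hdvd⟩ := hN
    obtain ⟨av, h0, h1, h2⟩ := pigeon e p hp.one_le N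
    have hp0 : (p : 𝓞 F) ≠ 0 := by exact_mod_cast hp.ne_zero
    obtain ⟨m, β, h3, h4⟩ := exists_m_beta ϑ k hk p hp0 N av h2 hdvd
    have hpr : (0 : ℝ) < p := by exact_mod_cast hp.pos
    have hNA : |(N : ℝ)| ≤ A * X := by
      have h5 : (|N| : ℤ) ≤ ⌊(A : ℝ) * X⌋ := abs_le.mpr ⟨hN1, hN2⟩
      have h6 := Int.le_floor.mp h5
      simpa using h6
    refine ⟨p, av, m, β, ⟨hp.one_le, h0, h1, h2, h3, h4⟩, ⟨hp, hXp, ?_⟩, ⟨hN3, hNA, ?_, ?_⟩⟩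
    · have : |(N : ℝ)| ≤ A * p := hNA.trans (by gcongr)
      exact_mod_cast this
    · exact (Real.le_logb_iff_rpow_le hX hpr).mp hlog.1
    · exact (Real.logb_le_iff_le_rpow hX hpr).mp hlog.2
  choose! p av m β h using hex
  exact ⟨p, av, m, β, h⟩

/-- the final estimate -/
theorem tube_final (e m : ℕ) (C f κ z s h : ℝ) (hC : 0 ≤ C) (hκ : 0 < κ) (hs : 0 ≤ s)
    (h1 : (m : ℝ) * s + (e : ℝ) * z < 1) (h2 : (m : ℝ) * s + ((e : ℝ) + 1) * (h - s) < 1)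
    (c : ℝ → ℝ) (hc0 : ∀ X, 0 ≤ c X)
    (hc : ∀ᶠ X : ℝ in atTop, ∀ q : ℕ, q.Prime → X ^ s ≤ q →
      c X ≤ C * f ^ 2 * (q : ℝ) ^ m * ((κ * X ^ (-z))⁻¹ ^ e + (X ^ h / q) ^ (e + 1))) :
    Tendsto (fun X : ℝ => c X / X) atTop (𝓝 0) := by
  have hlim : Tendsto (fun X : ℝ => C * f ^ 2 * 4 ^ m * (κ⁻¹ ^ e *
      X ^ (-(1 - ((m : ℝ) * s + (e : ℝ) * z))) +
      X ^ (-(1 - ((m : ℝ) * s + ((e : ℝ) + 1) * (h - s)))))) atTop (𝓝 0) := by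
    have a1 := (tendsto_rpow_neg_atTop (sub_pos.mpr h1)).const_mul (κ⁻¹ ^ e)
    have a2 := tendsto_rpow_neg_atTop (sub_pos.mpr h2)
    simpa using (a1.add a2).const_mul (C * f ^ 2 * 4 ^ m)
  refine squeeze_zero' ?_ ?_ hlim
  · filter_upwards [eventually_ge_atTop 0] with X hX
    exact div_nonneg (hc0 X) hX
  filter_upwards [hc, eventually_ge_atTop 1] with X hc hX
  have hX0 : 0 < X := by linarith
  have hs1 : 1 ≤ X ^ s := Real.one_le_rpow hX hs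
  obtain ⟨q, hq, hq1, hq2⟩ := Nat.exists_prime_lt_and_le_two_mul ⌈X ^ s⌉₊
    (Nat.ceil_pos.mpr (by linarith)).ne'
  have hq3 : X ^ s ≤ q := (Nat.le_ceil _).trans (by exact_mod_cast hq1.le)
  have hq4 : (q : ℝ) ≤ 4 * X ^ s := by
    have a1 : (q : ℝ) ≤ 2 * (⌈X ^ s⌉₊ : ℝ) := by exact_mod_cast hq2
    linarith [Nat.ceil_lt_add_one (show 0 ≤ X ^ s by linarith)]
  rw [div_le_iff₀ hX0]
  refine (hc q hq hq3).trans ?_
  have e1 : X ^ (-(1 - ((m : ℝ) * s + (e : ℝ) * z))) * X = (X ^ s) ^ m * (X ^ z) ^ e := by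
    rw [← Real.rpow_add_one hX0.ne', ← Real.rpow_natCast, ← Real.rpow_natCast,
      ← Real.rpow_mul hX0.le, ← Real.rpow_mul hX0.le, ← Real.rpow_add hX0]
    congr 1
    ring
  have e2 : X ^ (-(1 - ((m : ℝ) * s + ((e : ℝ) + 1) * (h - s)))) * X =
      (X ^ s) ^ m * (X ^ h / X ^ s) ^ (e + 1) := by
    rw [← Real.rpow_add_one hX0.ne', ← Real.rpow_sub hX0, ← Real.rpow_natCast,
      ← Real.rpow_natCast, ← Real.rpow_mul hX0.le, ← Real.rpow_mul hX0.le, ← Real.rpow_add hX0]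
    congr 1
    push_cast
    ring
  have e3 : (κ * X ^ (-z))⁻¹ = κ⁻¹ * X ^ z := by
    rw [mul_inv, Real.rpow_neg hX0.le, inv_inv]
  calc C * f ^ 2 * (q : ℝ) ^ m * ((κ * X ^ (-z))⁻¹ ^ e + (X ^ h / q) ^ (e + 1))
      ≤ C * f ^ 2 * (4 * X ^ s) ^ m * ((κ * X ^ (-z))⁻¹ ^ e + (X ^ h / X ^ s) ^ (e + 1)) := by
        gcongr
    _ = C * f ^ 2 * 4 ^ m * (κ⁻¹ ^ e * ((X ^ s) ^ m * (X ^ z) ^ e) +
        (X ^ s) ^ m * (X ^ h / X ^ s) ^ (e + 1)) := by rw [e3, mul_pow, mul_pow]; ring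
    _ = _ := by rw [← e1, ← e2]; ring

end Vale.Agent.P018
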