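import Vale.Agent.P018.R.Defs

namespace Vale.Agent.P018

open Finset

theorem tube_key (e : ℕ) (Z : Finset ℤ) (v : ℤ → Fin (e + 1) → ℤ) (hv : ∀ N ∈ Z, v N ≠ 0)
    (δ : ℝ) (hδ : 0 < δ) : ∃ key : ℤ → Fin (e + 1) × (Fin e → ℤ), ∀ N ∈ Z,
      (∀ l, |(v N l : ℝ)| ≤ |(v N (key N).1 : ℝ)|) ∧ (v N (key N).1 : ℝ) ≠ 0 ∧
      (∀ i, (key N).2 i ∈ Icc (-((⌊1 / δ⌋₊ + 1 : ℕ) : ℤ)) (⌊1 / δ⌋₊ + 1 : ℕ)) ∧
      ∀ i, 0 ≤ (v N ((key N).1.succAbove i) : ℝ) / v N (key N).1 - δ * (key N).2 i ∧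
        (v N ((key N).1.succAbove i) : ℝ) / v N (key N).1 - δ * (key N).2 i ≤ δ := by
  have hmax : ∀ N, ∃ l0, ∀ l, |(v N l : ℝ)| ≤ |(v N l0 : ℝ)| := fun N =>
    Finite.exists_max fun l => |(v N l : ℝ)|
  choose l0 hl0 using hmax
  refine ⟨fun N => (l0 N, fun i => ⌊(v N ((l0 N).succAbove i) : ℝ) / v N (l0 N) / δ⌋),
    fun N hN => ?_⟩
  have h0 : (v N (l0 N) : ℝ) ≠ 0 := by
    intro h
    apply hv N hN
    funext l
    have := hl0 N l
    rw [h] at this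
    simpa using this
  refine ⟨hl0 N, h0, fun i => ?_, fun i => ?_⟩
  · have h1 : |(v N ((l0 N).succAbove i) : ℝ) / v N (l0 N)| ≤ 1 := by
      rw [abs_div, div_le_one (abs_pos.2 h0)]; exact hl0 N _
    obtain ⟨h2, h3⟩ := abs_le.1 h1
    have h4 : 1 / δ < ⌊1 / δ⌋₊ + 1 := Nat.lt_floor_add_one _
    have h5 := div_le_div_of_nonneg_right h2 hδ.le
    have h6 := div_le_div_of_nonneg_right h3 hδ.le
    rw [neg_div] at h5
    rw [mem_Icc]
    constructor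
    · rw [Int.le_floor]; push_cast; linarith
    · have := Int.floor_le ((v N ((l0 N).succAbove i) : ℝ) / v N (l0 N) / δ)
      have h7 : ((⌊(v N ((l0 N).succAbove i) : ℝ) / v N (l0 N) / δ⌋ : ℤ) : ℝ) ≤
          (((⌊1 / δ⌋₊ + 1 : ℕ) : ℤ) : ℝ) := by push_cast; linarith
      exact_mod_cast h7
  · have h1 := Int.floor_le ((v N ((l0 N).succAbove i) : ℝ) / v N (l0 N) / δ)
    have h2 := Int.lt_floor_add_one ((v N ((l0 N).succAbove i) : ℝ) / v N (l0 N) / δ)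
    rw [le_div_iff₀ hδ] at h1
    rw [div_lt_iff₀ hδ] at h2
    constructor <;> linarith

theorem tube_close {e : ℕ} {a b : Fin (e + 1) → ℤ} {l0 : Fin (e + 1)} {c : Fin e → ℤ} {δ : ℝ}
    (hδ : 0 < δ) (ha0 : (a l0 : ℝ) ≠ 0) (hb0 : (b l0 : ℝ) ≠ 0)
    (ha : ∀ i, 0 ≤ (a (l0.succAbove i) : ℝ) / a l0 - δ * c i ∧
      (a (l0.succAbove i) : ℝ) / a l0 - δ * c i ≤ δ)
    (hb : ∀ i, 0 ≤ (b (l0.succAbove i) : ℝ) / b l0 - δ * c i ∧
      (b (l0.succAbove i) : ℝ) / b l0 - δ * c i ≤ δ) (l : Fin (e + 1)) :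
    |(a l : ℝ) / a l0 - (b l : ℝ) / b l0| ≤ δ := by
  rcases Fin.eq_self_or_eq_succAbove l0 l with rfl | ⟨i, rfl⟩
  · rw [div_self ha0, div_self hb0, sub_self, abs_zero]; exact hδ.le
  · rw [abs_le]
    constructor <;> linarith [(ha i).1, (ha i).2, (hb i).1, (hb i).2]

theorem tube_card_Icc (M : ℕ) : (Icc (-(M : ℤ)) M).card = 2 * M + 1 := by
  rw [Int.card_Icc]; omega

theorem tube_M {δ : ℝ} (hδ : 0 < δ) :
    ((Icc (-((⌊1 / δ⌋₊ + 1 : ℕ) : ℤ)) (⌊1 / δ⌋₊ + 1 : ℕ)).card : ℝ) ≤ 2 / δ + 3 := by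
  rw [tube_card_Icc]
  have : (⌊1 / δ⌋₊ : ℝ) ≤ 1 / δ := Nat.floor_le (by positivity)
  have e : 2 / δ = 2 * (1 / δ) := by ring
  push_cast
  linarith

/-- cutting the directions of integer vectors into boxes -/
theorem dir_boxes (e : ℕ) (Z : Finset ℤ) (v : ℤ → Fin (e + 1) → ℤ) (hv : ∀ N ∈ Z, v N ≠ 0)
    (δ : ℝ) (hδ : 0 < δ) : ∃ 𝒯 : Finset (Finset ℤ), (𝒯.card : ℝ) ≤ (e + 1) * (2 / δ + 3) ^ e ∧
      (∀ N ∈ Z, ∃ T ∈ 𝒯, N ∈ T) ∧ ∀ T ∈ 𝒯, T ⊆ Z ∧ ∃ l0, (∀ N ∈ T, ∀ l, |(v N l : ℝ)| ≤ |(v N l0 : ℝ)|) ∧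
        ∀ N ∈ T, ∀ N' ∈ T, ∀ l, |(v N l : ℝ) / v N l0 - (v N' l : ℝ) / v N' l0| ≤ δ := by
  classical
  obtain ⟨key, hkey⟩ := tube_key e Z v hv δ hδ
  set I := Icc (-((⌊1 / δ⌋₊ + 1 : ℕ) : ℤ)) (⌊1 / δ⌋₊ + 1 : ℕ) with hI
  refine ⟨((univ : Finset (Fin (e + 1))) ×ˢ Fintype.piFinset fun _ : Fin e => I).image
    fun κ => Z.filter fun N => key N = κ, ?_, fun N hN => ?_, fun T hT => ?_⟩
  · refine le_trans (Nat.cast_le.2 card_image_le) ?_
    rw [card_product, Fintype.card_piFinset, prod_const, card_univ, card_univ, Fintype.card_fin,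
      Fintype.card_fin]
    push_cast
    exact mul_le_mul_of_nonneg_left (pow_le_pow_left₀ (by positivity) (tube_M hδ) e)
      (by positivity)
  · exact ⟨_, mem_image_of_mem _ (mem_product.2 ⟨mem_univ (key N).1,
      Fintype.mem_piFinset.2 (hkey N hN).2.2.1⟩), mem_filter.2 ⟨hN, rfl⟩⟩
  · obtain ⟨κ, -, rfl⟩ := mem_image.1 hT
    refine ⟨filter_subset _ _, κ.1, fun N hN => ?_, fun N hN N' hN' => ?_⟩
    · obtain ⟨h1, rfl⟩ := mem_filter.1 hN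
      exact (hkey N h1).1
    · obtain ⟨h1, h2⟩ := mem_filter.1 hN
      obtain ⟨h1', h2'⟩ := mem_filter.1 hN'
      have g := hkey N h1
      have g' := hkey N' h1'
      rw [h2] at g
      rw [h2'] at g'
      exact tube_close hδ g.2.1 g'.2.1 g.2.2.2 g'.2.2.2

/-- reduction of a relation modulo a prime -/
theorem tube_red {ι K : Type} [Fintype ι] [Field K] [CharZero K] (Φ : MvPolynomial ι K)
    (hΦ : Φ ≠ 0) (q : ℕ) (hq : q.Prime) : ∃ Ψ : MvPolynomial ι (ZMod q), Ψ ≠ 0 ∧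
      Ψ.support ⊆ Φ.support ∧ ∀ x : ι → ℤ, MvPolynomial.eval (fun l => (x l : K)) Φ = 0 →
        MvPolynomial.eval (fun l => (x l : ZMod q)) Ψ = 0 := by
  classical
  obtain ⟨E0, hE0⟩ := MvPolynomial.ne_zero_iff.1 hΦ
  have hE0s : E0 ∈ Φ.support := MvPolynomial.mem_support_iff.2 hE0
  obtain ⟨φ, hφ⟩ : ∃ φ : Module.Dual ℚ K, φ (Φ.coeff E0) ≠ 0 := by
    by_contra hc
    push Not at hc
    exact hE0 ((Module.forall_dual_apply_eq_zero_iff ℚ _).1 hc)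
  obtain ⟨b, hb⟩ := IsLocalization.exist_integer_multiples (nonZeroDivisors ℤ) Φ.support
    fun E => φ (Φ.coeff E)
  choose! z hz using hb
  have hb0 : (b : ℤ) ≠ 0 := nonZeroDivisors.ne_zero b.2
  obtain ⟨g, hg, hg1⟩ := Finset.extract_gcd z ⟨E0, hE0s⟩
  have hz0 : z E0 ≠ 0 := by
    intro h
    have := hz E0 hE0s
    rw [h, map_zero, eq_comm, smul_eq_zero] at this
    tauto
  have hd0 : Φ.support.gcd z ≠ 0 := by
    intro h
    exact hz0 (by rw [hg E0 hE0s, h, zero_mul])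
  have hcoeff : ∀ E, (∑ E' ∈ Φ.support, MvPolynomial.monomial E' (g E' : ZMod q)).coeff E =
      if E ∈ Φ.support then (g E : ZMod q) else 0 := by
    intro E
    rw [MvPolynomial.coeff_sum]
    simp only [MvPolynomial.coeff_monomial]
    rw [sum_ite_eq']
  refine ⟨∑ E' ∈ Φ.support, MvPolynomial.monomial E' (g E' : ZMod q), fun h0 => ?_,
    fun E hE => ?_, fun x hx => ?_⟩
  · have h1 : (q : ℤ) ∣ Φ.support.gcd g := Finset.dvd_gcd fun E hE => by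
      have := hcoeff E
      rw [h0, if_pos hE, MvPolynomial.coeff_zero] at this
      exact (ZMod.intCast_zmod_eq_zero_iff_dvd _ _).1 this.symm
    rw [hg1] at h1
    exact hq.one_lt.ne' (by exact_mod_cast Int.eq_one_of_dvd_one (by positivity) h1)
  · by_contra hc
    have := MvPolynomial.mem_support_iff.1 hE
    rw [hcoeff, if_neg hc] at this
    exact this rfl
  · rw [MvPolynomial.eval_eq'] at hx
    have h1 : ∑ E ∈ Φ.support, (∏ i, x i ^ E i : ℤ) • φ (Φ.coeff E) = 0 := by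
      have := congrArg φ hx
      rw [map_sum, map_zero] at this
      rw [← this]
      refine sum_congr rfl fun E _ => ?_
      rw [← map_zsmul, zsmul_eq_mul, mul_comm]
      push_cast
      rfl
    have h2 : ((Φ.support.gcd z * ∑ E ∈ Φ.support, g E * ∏ i, x i ^ E i : ℤ) : ℚ) = 0 := by
      have := congrArg ((b : ℤ) • ·) h1
      simp only [smul_sum, smul_zero] at this
      rw [← this, mul_sum, Int.cast_sum]
      refine sum_congr rfl fun E hE => ?_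
      rw [smul_comm, ← hz E hE, ← mul_assoc, ← hg E hE, zsmul_eq_mul, mul_comm]
      simp
    have h3 : ∑ E ∈ Φ.support, g E * ∏ i, x i ^ E i = 0 :=
      (mul_eq_zero.1 (by exact_mod_cast h2)).resolve_left hd0
    have h4 := congrArg (Int.cast : ℤ → ZMod q) h3
    push_cast at h4
    rw [map_sum, ← h4]
    refine sum_congr rfl fun E _ => ?_
    rw [MvPolynomial.eval_monomial, Finsupp.prod_fintype _ _ (by simp)]

/-- integers close to a real number -/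
noncomputable def tubeA (x ρ : ℝ) : Finset ℤ := Icc ⌈x - ρ⌉ ⌊x + ρ⌋

theorem tube_memA {x ρ : ℝ} {u : ℤ} : u ∈ tubeA x ρ ↔ |(u : ℝ) - x| ≤ ρ := by
  rw [tubeA, mem_Icc, Int.ceil_le, Int.le_floor, abs_le]
  constructor <;> rintro ⟨h1, h2⟩ <;> constructor <;> linarith

theorem tube_pairs {δ R : ℝ} (hδ : 0 < δ) (hδ1 : δ ≤ 1) (hR : R * δ < 1) {h : ℤ} (h0 : h ≠ 0)
    (hh : |(h : ℝ)| ≤ R) :
    ∑ c ∈ Icc (-((⌊1 / δ⌋₊ + 1 : ℕ) : ℤ)) (⌊1 / δ⌋₊ + 1 : ℕ),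
      ((tubeA (δ * c * h) (R * δ)).card : ℝ) ≤ 21 * R := by
  classical
  set I := Icc (-((⌊1 / δ⌋₊ + 1 : ℕ) : ℤ)) (⌊1 / δ⌋₊ + 1 : ℕ) with hI
  set U := Icc (-((3 * h.natAbs : ℕ) : ℤ)) (3 * h.natAbs : ℕ) with hU
  have h1 : (1 : ℝ) ≤ |(h : ℝ)| := by exact_mod_cast Int.one_le_abs h0
  have hn : (h.natAbs : ℝ) = |(h : ℝ)| := by rw [Nat.cast_natAbs]; push_cast; rfl
  have hsub : ∀ c ∈ I, tubeA (δ * c * h) (R * δ) =
      U.filter fun u : ℤ => |(u : ℝ) - δ * c * h| ≤ R * δ := by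
    intro c hc
    ext u
    rw [mem_filter, tube_memA, iff_and_self]
    intro hu
    have h2 : |(c : ℝ)| ≤ 1 / δ + 1 := by
      have h3 : |c| ≤ ((⌊1 / δ⌋₊ + 1 : ℕ) : ℤ) := abs_le.2 (mem_Icc.1 hc)
      have h4 : |(c : ℝ)| ≤ ⌊1 / δ⌋₊ + 1 := by exact_mod_cast h3
      have : (⌊1 / δ⌋₊ : ℝ) ≤ 1 / δ := Nat.floor_le (by positivity)
      linarith
    have h3 : |δ * c * h| ≤ 2 * |(h : ℝ)| := by
      rw [abs_mul, abs_mul, abs_of_pos hδ]
      refine mul_le_mul_of_nonneg_right ?_ (abs_nonneg _)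
      have := mul_le_mul_of_nonneg_left h2 hδ.le
      rw [mul_add, mul_one_div_cancel hδ.ne'] at this
      linarith
    have h4 : |(u : ℝ)| ≤ 3 * |(h : ℝ)| := by
      have := abs_sub_abs_le_abs_sub (u : ℝ) (δ * c * h)
      linarith
    have h5 : |u| ≤ ((3 * h.natAbs : ℕ) : ℤ) := by
      have : |u| ≤ 3 * |h| := by exact_mod_cast h4
      push_cast
      exact this
    exact mem_Icc.2 (abs_le.1 h5)
  have hfib : ∀ u ∈ U, ((I.filter fun c : ℤ => |(u : ℝ) - δ * c * h| ≤ R * δ).card : ℝ) ≤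
      3 * R / |(h : ℝ)| := by
    intro u _
    have h2 := card_le_of_close (I.filter fun c : ℤ => |(u : ℝ) - δ * c * h| ≤ R * δ)
      (2 * R / |(h : ℝ)|) fun c hc c' hc' => by
        have g1 := (mem_filter.1 hc).2
        have g2 := (mem_filter.1 hc').2
        have g3 : |δ * ((c - c') * h)| ≤ δ * (2 * R) := by
          have e : δ * ((c - c') * h) = ((u : ℝ) - δ * c' * h) - ((u : ℝ) - δ * c * h) := by ring
          rw [e]
          have := abs_sub ((u : ℝ) - δ * c' * h) ((u : ℝ) - δ * c * h)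
          linarith
        rw [abs_mul, abs_of_pos hδ, abs_mul] at g3
        rw [le_div_iff₀ (by linarith)]
        exact le_trans (mul_le_mul_of_nonneg_right (le_abs_self _) (abs_nonneg _))
          (le_of_mul_le_mul_left g3 hδ)
    have h3 : (⌊2 * R / |(h : ℝ)|⌋₊ : ℝ) ≤ 2 * R / |(h : ℝ)| :=
      Nat.floor_le (div_nonneg (by linarith) (abs_nonneg _))
    have h4 : 1 ≤ R / |(h : ℝ)| := by rw [le_div_iff₀ (by linarith)]; linarith
    have h5 : ((I.filter fun c : ℤ => |(u : ℝ) - δ * c * h| ≤ R * δ).card : ℝ) ≤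
        ⌊2 * R / |(h : ℝ)|⌋₊ + 1 := by exact_mod_cast h2
    have e : 3 * R / |(h : ℝ)| = 2 * R / |(h : ℝ)| + R / |(h : ℝ)| := by ring
    linarith
  have hswap : ∑ c ∈ I, ((tubeA (δ * c * h) (R * δ)).card : ℝ) =
      ∑ u ∈ U, ((I.filter fun c : ℤ => |(u : ℝ) - δ * c * h| ≤ R * δ).card : ℝ) := by
    rw [sum_congr rfl fun c hc => by rw [hsub c hc]]
    simp only [card_filter]
    push_cast
    exact sum_comm
  rw [hswap]
  refine (sum_le_card_nsmul _ _ _ hfib).trans ?_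
  rw [hU, tube_card_Icc, nsmul_eq_mul]
  push_cast
  rw [hn, ← mul_div_assoc, div_le_iff₀ (by linarith)]
  nlinarith

/-- the quotient vectors allowed in a box -/
noncomputable def tubeW {e : ℕ} (δ R : ℝ) (c : Fin e → ℤ) : Finset (Σ _ : ℤ, Fin e → ℤ) :=
  (tubeA 0 R).sigma fun h => Fintype.piFinset fun i => tubeA (δ * c i * h) (R * δ)

theorem tube_sumW (e : ℕ) {δ R : ℝ} (hδ : 0 < δ) (hδ1 : δ ≤ 1) (hR0 : 0 ≤ R) (hR : R * δ < 1) :
    ∑ c ∈ Fintype.piFinset fun _ : Fin e =>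
        Icc (-((⌊1 / δ⌋₊ + 1 : ℕ) : ℤ)) (⌊1 / δ⌋₊ + 1 : ℕ), ((tubeW δ R c).card : ℝ)
      ≤ (5 * δ⁻¹) ^ e + 3 * R * (21 * R) ^ e := by
  classical
  set I := Icc (-((⌊1 / δ⌋₊ + 1 : ℕ) : ℤ)) (⌊1 / δ⌋₊ + 1 : ℕ) with hI
  have e1 : ∑ c ∈ Fintype.piFinset fun _ : Fin e => I, ((tubeW δ R c).card : ℝ) =
      ∑ h ∈ tubeA 0 R, (∑ c ∈ I, ((tubeA (δ * c * h) (R * δ)).card : ℝ)) ^ e := by
    simp only [tubeW, card_sigma, Fintype.card_piFinset]
    push_cast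
    rw [sum_comm]
    refine sum_congr rfl fun h _ => ?_
    rw [← prod_univ_sum (fun _ => I) fun _ (c : ℤ) => ((tubeA (δ * c * h) (R * δ)).card : ℝ)]
    simp
  have h0 : (0 : ℤ) ∈ tubeA 0 R := tube_memA.2 (by simpa using hR0)
  rw [e1, ← add_sum_erase _ _ h0]
  refine add_le_add (pow_le_pow_left₀ (sum_nonneg fun c _ => by positivity) ?_ e) ?_
  · have h1 : ∀ c ∈ I, ((tubeA (δ * c * (0 : ℤ)) (R * δ)).card : ℝ) ≤ 1 := by
      intro c _
      have : tubeA (δ * c * (0 : ℤ)) (R * δ) ⊆ {0} := by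
        intro u hu
        have h2 := tube_memA.1 hu
        simp only [Int.cast_zero, mul_zero, sub_zero] at h2
        have h3 : |u| < 1 := by exact_mod_cast h2.trans_lt hR
        rw [mem_singleton]; exact Int.abs_lt_one_iff.1 h3
      exact_mod_cast card_le_card this
    refine (sum_le_card_nsmul _ _ _ h1).trans ?_
    rw [nsmul_eq_mul, mul_one]
    refine (tube_M hδ).trans ?_
    have : 1 ≤ δ⁻¹ := one_le_inv₀ hδ |>.2 hδ1
    rw [div_eq_mul_inv]; linarith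
  · have h1 : ∀ h ∈ (tubeA 0 R).erase 0,
        (∑ c ∈ I, ((tubeA (δ * c * h) (R * δ)).card : ℝ)) ^ e ≤ (21 * R) ^ e := by
      intro h hh
      refine pow_le_pow_left₀ (sum_nonneg fun c _ => by positivity)
        (tube_pairs hδ hδ1 hR (ne_of_mem_erase hh) ?_) e
      simpa using tube_memA.1 (mem_of_mem_erase hh)
    refine (sum_le_card_nsmul _ _ _ h1).trans ?_
    rw [nsmul_eq_mul]
    refine mul_le_mul_of_nonneg_right ?_ (by positivity)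
    have h2 := card_le_of_close (tubeA 0 R) (2 * R) fun a ha b hb => by
      have g1 := abs_le.1 (tube_memA.1 ha)
      have g2 := abs_le.1 (tube_memA.1 hb)
      linarith [g1.2, g2.1]
    have h3 := card_erase_add_one h0
    have h4 : ((tubeA 0 R).erase 0).card ≤ ⌊2 * R⌋₊ := by omega
    have h5 : (⌊2 * R⌋₊ : ℝ) ≤ 2 * R := Nat.floor_le (by linarith)
    have h6 : (((tubeA 0 R).erase 0).card : ℝ) ≤ ⌊2 * R⌋₊ := by exact_mod_cast h4
    linarith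

theorem tube_fib {α β : Type} [DecidableEq β] (s : Finset α) (t : Finset β) (g : α → β) (B : ℝ)
    (hg : ∀ a ∈ s, g a ∈ t) (hB : ∀ b ∈ t, ((s.filter fun a => g a = b).card : ℝ) ≤ B) :
    (s.card : ℝ) ≤ t.card * B := by
  rw [card_eq_sum_card_fiberwise (f := g) (s := s) (t := t) hg, ← nsmul_eq_mul]
  push_cast
  exact sum_le_card_nsmul _ _ _ hB

/-- vectors of one box in one residue class -/
theorem tube_class {e : ℕ} (U : Finset ℤ) (v : ℤ → Fin (e + 1) → ℤ) {H δ f : ℝ} {q : ℕ}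
    (hq : 0 < q) (hf : 0 ≤ f) (l0 : Fin (e + 1)) (c : Fin e → ℤ)
    (hH : ∀ N ∈ U, |(v N l0 : ℝ)| ≤ H) (h0 : ∀ N ∈ U, (v N l0 : ℝ) ≠ 0)
    (hc : ∀ N ∈ U, ∀ i, 0 ≤ (v N (l0.succAbove i) : ℝ) / v N l0 - δ * c i ∧
      (v N (l0.succAbove i) : ℝ) / v N l0 - δ * c i ≤ δ)
    (hfib : ∀ T ⊆ U, (∀ N ∈ T, ∀ N' ∈ T, v N = v N') → (T.card : ℝ) ≤ f)
    (hcong : ∀ N ∈ U, ∀ N' ∈ U, ∀ l, (v N l : ZMod q) = v N' l) :
    (U.card : ℝ) ≤ (tubeW δ (2 * H / q) c).card * f := by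
  classical
  rcases U.eq_empty_or_nonempty with rfl | ⟨N0, hN0⟩
  · simp only [card_empty, Nat.cast_zero]; positivity
  have hq' : (0 : ℝ) < q := by exact_mod_cast hq
  have hdvd : ∀ N ∈ U, ∃ w : Fin (e + 1) → ℤ, ∀ l, v N l - v N0 l = q * w l := fun N hN =>
    ⟨_, fun l => Classical.choose_spec
      ((ZMod.intCast_eq_intCast_iff_dvd_sub _ _ q).1 (hcong N0 hN0 N hN l))⟩
  choose! w hw using hdvd
  have hw' : ∀ N ∈ U, ∀ l, (w N l : ℝ) = (v N l - v N0 l) / q := by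
    intro N hN l
    rw [eq_div_iff hq'.ne']
    have := congrArg (Int.cast : ℤ → ℝ) (hw N hN l)
    push_cast at this
    linarith
  have hbox : ∀ N ∈ U, ∀ i, |(v N (l0.succAbove i) : ℝ) - δ * c i * v N l0| ≤ H * δ := by
    intro N hN i
    have e1 : (v N (l0.succAbove i) : ℝ) - δ * c i * v N l0 =
        v N l0 * ((v N (l0.succAbove i) : ℝ) / v N l0 - δ * c i) := by
      have := h0 N hN
      field_simp
    rw [e1, abs_mul, abs_of_nonneg (hc N hN i).1]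
    exact mul_le_mul (hH N hN) (hc N hN i).2 (hc N hN i).1 ((abs_nonneg _).trans (hH N hN))
  refine tube_fib U _ (fun N => ⟨w N l0, fun i => w N (l0.succAbove i)⟩) f (fun N hN => ?_)
    fun b _ => hfib _ (filter_subset _ _) fun N hN N' hN' => ?_
  · rw [tubeW, mem_sigma, Fintype.mem_piFinset]
    refine ⟨tube_memA.2 ?_, fun i => tube_memA.2 ?_⟩
    · rw [sub_zero, hw' N hN, abs_div, abs_of_pos hq']
      refine div_le_div_of_nonneg_right ?_ hq'.le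
      have := abs_sub (v N l0 : ℝ) (v N0 l0)
      linarith [hH N hN, hH N0 hN0]
    · simp only
      have e1 : (w N (l0.succAbove i) : ℝ) - δ * c i * w N l0 =
          (((v N (l0.succAbove i) : ℝ) - δ * c i * v N l0) -
            ((v N0 (l0.succAbove i) : ℝ) - δ * c i * v N0 l0)) / q := by
        rw [hw' N hN, hw' N hN]; ring
      rw [e1, abs_div, abs_of_pos hq', div_mul_eq_mul_div]
      refine div_le_div_of_nonneg_right ?_ hq'.le
      have := abs_sub ((v N (l0.succAbove i) : ℝ) - δ * c i * v N l0)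
        ((v N0 (l0.succAbove i) : ℝ) - δ * c i * v N0 l0)
      linarith [hbox N hN i, hbox N0 hN0 i]
  · obtain ⟨h1, h2⟩ := mem_filter.1 hN
    obtain ⟨h1', h2'⟩ := mem_filter.1 hN'
    have h3 := h2.trans h2'.symm
    simp only [Sigma.mk.injEq, heq_eq_eq] at h3
    funext l
    have h4 : w N l = w N' l := by
      rcases Fin.eq_self_or_eq_succAbove l0 l with rfl | ⟨i, rfl⟩
      · exact h3.1
      · exact congrFun h3.2 i
    have g1 := hw N h1 l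
    have g2 := hw N' h1' l
    rw [h4] at g1
    omega

/-- Counting integer vectors which lie, in each thin tube, on a cone of dimension `m`:
reduce modulo a prime `q` and average over the tubes. -/
theorem tube_count (e m D : ℕ) : ∃ C : ℝ, 0 ≤ C ∧ ∀ (K : Type) [Field K] [CharZero K]
    (Z : Finset ℤ) (v : ℤ → Fin (e + 1) → ℤ) (H δ f : ℝ) (q : ℕ), q.Prime → 0 < δ → δ ≤ 1 →
    0 ≤ H → 2 * H * δ < q → 1 ≤ f → (∀ N ∈ Z, v N ≠ 0 ∧ ∀ l, |(v N l : ℝ)| ≤ H) →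
    (∀ T ⊆ Z, (∀ N ∈ T, ∀ N' ∈ T, v N = v N') → (T.card : ℝ) ≤ f) →
    (∀ T ⊆ Z, ∀ l0, (∀ N ∈ T, ∀ l, |(v N l : ℝ)| ≤ |(v N l0 : ℝ)|) →
      (∀ N ∈ T, ∀ N' ∈ T, ∀ l, |(v N l : ℝ) / v N l0 - (v N' l : ℝ) / v N' l0| ≤ δ) →
      ∃ (T0 : Finset ℤ) (𝒯 : Finset (Finset ℤ)), (T0.card : ℝ) ≤ f ∧ (𝒯.card : ℝ) ≤ f ∧
        (∀ N ∈ T, N ∈ T0 ∨ ∃ T' ∈ 𝒯, N ∈ T') ∧ ∀ T' ∈ 𝒯,
          ∀ J : Finset (Fin (e + 1)), J.card = m + 1 → ∃ Φ : MvPolynomial (Fin (e + 1)) K, Φ ≠ 0 ∧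
            (∀ E ∈ Φ.support, E.support ⊆ J ∧ ∀ i, E i ≤ D) ∧
            ∀ N ∈ T', MvPolynomial.eval (fun l => ((v N l : ℤ) : K)) Φ = 0) →
    (Z.card : ℝ) ≤ C * f ^ 2 * (q : ℝ) ^ m * (δ⁻¹ ^ e + (H / q) ^ (e + 1)) := by
  classical
  set C1 : ℝ := 2 ^ (e + 1) * (D + 1) ^ (e + 1) with hC1
  have hC10 : 0 ≤ C1 := by positivity
  refine ⟨(e + 1) * ((1 + C1) * (5 ^ e + 6 * 42 ^ e)), by positivity, ?_⟩
  intro K _ _ Z v H δ f q hq hδ hδ1 hH hHq hf hv hfib hcone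
  have : Fact q.Prime := ⟨hq⟩
  have hq' : (0 : ℝ) < q := by exact_mod_cast hq.pos
  have hqm : (1 : ℝ) ≤ (q : ℝ) ^ m := one_le_pow₀ (by exact_mod_cast hq.pos)
  obtain ⟨key, hkey⟩ := tube_key e Z v (fun N hN => (hv N hN).1) δ hδ
  set I := Icc (-((⌊1 / δ⌋₊ + 1 : ℕ) : ℤ)) (⌊1 / δ⌋₊ + 1 : ℕ) with hI
  have hbox : ∀ κ : Fin (e + 1) × (Fin e → ℤ), ((Z.filter fun N => key N = κ).card : ℝ) ≤
      f ^ 2 * (q : ℝ) ^ m * (1 + C1 * (tubeW δ (2 * H / q) κ.2).card) := by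
    intro κ
    set T := Z.filter fun N => key N = κ with hT
    have hTZ : T ⊆ Z := filter_subset _ _
    have hk : ∀ N ∈ T, (∀ l, |(v N l : ℝ)| ≤ |(v N κ.1 : ℝ)|) ∧ (v N κ.1 : ℝ) ≠ 0 ∧
        ∀ i, 0 ≤ (v N (κ.1.succAbove i) : ℝ) / v N κ.1 - δ * κ.2 i ∧
          (v N (κ.1.succAbove i) : ℝ) / v N κ.1 - δ * κ.2 i ≤ δ := by
      intro N hN
      obtain ⟨h1, rfl⟩ := mem_filter.1 hN
      exact ⟨(hkey N h1).1, (hkey N h1).2.1, (hkey N h1).2.2.2⟩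
    obtain ⟨T0, 𝒯, h1, h2, h3, h4⟩ := hcone T hTZ κ.1 (fun N hN => (hk N hN).1)
      fun N hN N' hN' => tube_close hδ (hk N hN).2.1 (hk N' hN').2.1 (hk N hN).2.2 (hk N' hN').2.2
    set B : ℝ := (tubeW δ (2 * H / q) κ.2).card * f with hB
    have hB0 : 0 ≤ B := by positivity
    have hpiece : ∀ T' ∈ 𝒯, ((T ∩ T').card : ℝ) ≤ C1 * (q : ℝ) ^ m * B := by
      intro T' hT'
      set S := (T ∩ T').image fun N l => (v N l : ZMod q) with hS
      have hSc := cnt_grid S q D m hq.pos (fun _ => univ) (fun _ => by simp)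
        (fun _ _ _ => mem_univ _) fun J hJ => by
          obtain ⟨Φ, g1, g2, g3⟩ := h4 T' hT' J hJ
          obtain ⟨Ψ, k1, k2, k3⟩ := tube_red Φ g1 q hq
          refine ⟨Ψ, k1, fun E hE => g2 E (k2 hE), fun y hy => ?_⟩
          obtain ⟨N, hN, rfl⟩ := mem_image.1 hy
          exact k3 _ (g3 N (mem_inter.1 hN).2)
      have hSc' : (S.card : ℝ) ≤ C1 * (q : ℝ) ^ m := by
        rw [Fintype.card_fin] at hSc
        rw [hC1, mul_assoc]
        exact_mod_cast hSc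
      refine le_trans (tube_fib (T ∩ T') S _ B (fun N hN => mem_image_of_mem _ hN) fun y _ => ?_)
        (mul_le_mul_of_nonneg_right hSc' hB0)
      have hsub : ∀ N ∈ (T ∩ T').filter fun N => (fun l => (v N l : ZMod q)) = y, N ∈ T :=
        fun N hN => (mem_inter.1 (mem_filter.1 hN).1).1
      refine tube_class _ v hq.pos (by linarith) κ.1 κ.2
        (fun N hN => (hv N (hTZ (hsub N hN))).2 _) (fun N hN => (hk N (hsub N hN)).2.1)
        (fun N hN => (hk N (hsub N hN)).2.2)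
        (fun T1 hT1 => hfib T1 fun N hN => hTZ (hsub N (hT1 hN))) fun N hN N' hN' l => ?_
      exact congrFun ((mem_filter.1 hN).2.trans (mem_filter.1 hN').2.symm) l
    have hcov : T ⊆ T0 ∪ 𝒯.biUnion fun T' => T ∩ T' := by
      intro N hN
      rcases h3 N hN with h | ⟨T', hT', h⟩
      · exact mem_union_left _ h
      · exact mem_union_right _ (mem_biUnion.2 ⟨T', hT', mem_inter.2 ⟨hN, h⟩⟩)
    have h5 : T.card ≤ T0.card + ∑ T' ∈ 𝒯, (T ∩ T').card :=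
      (card_le_card hcov).trans ((card_union_le _ _).trans
        (Nat.add_le_add_left card_biUnion_le _))
    have h6 : (T.card : ℝ) ≤ T0.card + ∑ T' ∈ 𝒯, ((T ∩ T').card : ℝ) := by exact_mod_cast h5
    have h7 := sum_le_card_nsmul _ _ _ hpiece
    rw [nsmul_eq_mul] at h7
    have h8 : (𝒯.card : ℝ) * (C1 * (q : ℝ) ^ m * B) ≤ f * (C1 * (q : ℝ) ^ m * B) :=
      mul_le_mul_of_nonneg_right h2 (by positivity)
    have h9 : f ≤ f ^ 2 * (q : ℝ) ^ m := by nlinarith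
    have e : f ^ 2 * (q : ℝ) ^ m * (1 + C1 * (tubeW δ (2 * H / q) κ.2).card) =
        f ^ 2 * (q : ℝ) ^ m + f * (C1 * (q : ℝ) ^ m * B) := by rw [hB]; ring
    linarith
  have hR : 2 * H / q * δ < 1 := by rw [div_mul_eq_mul_div, div_lt_one hq']; exact hHq
  have hW := tube_sumW e hδ hδ1 (by positivity : 0 ≤ 2 * H / q) hR
  have hIc : ((Fintype.piFinset fun _ : Fin e => I).card : ℝ) ≤ (5 * δ⁻¹) ^ e := by
    rw [Fintype.card_piFinset, prod_const, card_univ, Fintype.card_fin]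
    push_cast
    refine pow_le_pow_left₀ (by positivity) ((tube_M hδ).trans ?_) e
    have : 1 ≤ δ⁻¹ := one_le_inv₀ hδ |>.2 hδ1
    rw [div_eq_mul_inv]; linarith
  have hZ : (Z.card : ℝ) = ∑ κ ∈ (univ : Finset (Fin (e + 1))) ×ˢ
      Fintype.piFinset fun _ : Fin e => I, ((Z.filter fun N => key N = κ).card : ℝ) := by
    rw [card_eq_sum_card_fiberwise (f := key) (s := Z) fun N hN => mem_coe.2 (mem_product.2
      ⟨mem_univ (key N).1, Fintype.mem_piFinset.2 (hkey N hN).2.2.1⟩)]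
    push_cast
    rfl
  rw [hZ]
  refine (sum_le_sum fun κ _ => hbox κ).trans ?_
  rw [← mul_sum, sum_product]
  simp only [sum_const, card_univ, Fintype.card_fin, nsmul_eq_mul, sum_add_distrib, ← mul_sum,
    mul_one]
  have ha : 0 ≤ δ⁻¹ ^ e := by positivity
  have hb : 0 ≤ (H / q) ^ (e + 1) := by positivity
  have e1 : (5 * δ⁻¹) ^ e = 5 ^ e * δ⁻¹ ^ e := mul_pow _ _ _
  have e2 : 3 * (2 * H / q) * (21 * (2 * H / q)) ^ e = 6 * 42 ^ e * (H / q) ^ (e + 1) := by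
    rw [show 21 * (2 * H / q) = 42 * (H / q) by ring, mul_pow, pow_succ]; ring
  rw [e1] at hIc
  rw [e1, e2] at hW
  have h5 : (0 : ℝ) ≤ 5 ^ e := by positivity
  have h42 : (0 : ℝ) ≤ 6 * 42 ^ e := by positivity
  have k1 : ((Fintype.piFinset fun _ : Fin e => I).card : ℝ) ≤
      (5 ^ e + 6 * 42 ^ e) * (δ⁻¹ ^ e + (H / q) ^ (e + 1)) := by
    nlinarith [mul_nonneg h5 hb, mul_nonneg h42 ha, mul_nonneg h42 hb]
  have k2 : ∑ c ∈ Fintype.piFinset fun _ : Fin e => I, ((tubeW δ (2 * H / q) c).card : ℝ) ≤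
      (5 ^ e + 6 * 42 ^ e) * (δ⁻¹ ^ e + (H / q) ^ (e + 1)) := by
    nlinarith [mul_nonneg h5 hb, mul_nonneg h42 ha]
  have k3 := add_le_add k1 (mul_le_mul_of_nonneg_left k2 hC10)
  have k4 := mul_le_mul_of_nonneg_left k3
    (by positivity : (0 : ℝ) ≤ f ^ 2 * (q : ℝ) ^ m * (e + 1))
  push_cast
  linarith

end Vale.Agent.P018
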