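import Vale.Agent.P018.R.RelW
import Vale.Agent.P018.R.Tube
import Vale.Agent.P018.R.Cone
import Vale.Agent.P018.Q.LinAux

namespace Vale.Agent.P018

open NumberField Finset Filter Topology

variable {F : Type} [Field F] [NumberField F]

open Classical in
theorem wa_roots (T : Finset ℤ) (Pi0 : Polynomial F) (h0 : Pi0 ≠ 0) (C : ℕ)
    (hC : Pi0.natDegree ≤ C) : (T.filter fun N => Pi0.eval ((N : ℤ) : F) = 0).card ≤ C := by
  classical
  refine le_trans ?_ ((Multiset.toFinset_card_le _).trans ((Polynomial.card_roots' Pi0).trans hC))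
  refine Finset.card_le_card_of_injOn (fun N => ((N : ℤ) : F)) (fun N hN => ?_)
    (fun N _ N' _ h => Int.cast_injective h)
  simp only [Finset.mem_coe, Multiset.mem_toFinset, Polynomial.mem_roots h0]
  exact (Finset.mem_filter.mp hN).2

theorem wa_eta (d n : ℕ) (hd : 0 < d) (h z c : ℝ) (hb : Bal d n h z) : ∃ s η0 : ℝ, 0 ≤ s ∧ 0 < η0 ∧
    ∀ η : ℝ, 0 ≤ η → η ≤ η0 → (h + c * η) / d - z < s ∧
      ((n + 2 : ℕ) : ℝ) * s + ((d : ℝ) - 1) * z < 1 ∧
      ((n + 2 : ℕ) : ℝ) * s + (d : ℝ) * ((h + c * η) / d - s) < 1 := by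
  obtain ⟨s, hs, h1, h2, h3⟩ := hb
  have hd0 : (0 : ℝ) < d := by exact_mod_cast hd
  have c1 : Continuous fun η : ℝ => (h + c * η) / d - z := by fun_prop
  have c2 : Continuous fun η : ℝ => h + c * η - ((d : ℝ) - ((n : ℝ) + 2)) * s := by fun_prop
  have e1 := (c1.continuousAt (x := 0)).eventually (gt_mem_nhds (by simpa using h1 :
    (fun η : ℝ => (h + c * η) / d - z) 0 < s))
  have e2 := (c2.continuousAt (x := 0)).eventually (gt_mem_nhds (by simpa using h3 :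
    (fun η : ℝ => h + c * η - ((d : ℝ) - ((n : ℝ) + 2)) * s) 0 < 1))
  obtain ⟨ε, hε, hball⟩ := Metric.eventually_nhds_iff.mp (e1.and e2)
  refine ⟨s, ε / 2, hs, by linarith, fun η h0 hη => ?_⟩
  obtain ⟨a1, a2⟩ := hball (y := η) (by rw [Real.dist_eq, sub_zero, abs_of_nonneg h0]; linarith)
  refine ⟨a1, by push_cast; exact h2, ?_⟩
  have : (d : ℝ) * ((h + c * η) / d - s) = h + c * η - d * s := by field_simp
  rw [this]
  push_cast
  linarith

theorem windowA {e : ℕ} (he : 1 ≤ e) (ϑ : Fin (e + 1) → 𝓞 F) (hinj : Function.Injective ϑ)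
    (hind : ∀ i (a : Fin (e + 1) → ℤ), a ≠ 0 → pv a (ϑ i) ≠ 0) (k A : ℕ) (hk : 1 ≤ k)
    (y : ℝ) (hy : 1 ≤ y) (hyk : (k : ℝ) * y ≤ ((e + 1 : ℕ) : ℝ)) (hgood : GoodA (e + 1) k y) :
    ∃ η : ℝ, 0 < η ∧ Tendsto (fun X : ℝ =>
      ((Bad ϑ k A (Set.Icc (y - η) (y + η)) X).card : ℝ) / X) atTop (𝓝 0) := by
  classical
  obtain ⟨n, z, hz, hdet, hbal⟩ := hgood
  obtain ⟨s, η0, hs, hη0, hnum⟩ := wa_eta (e + 1) n (by omega) y z 1 hbal
  obtain ⟨η, κ, Δ, b, hη, hηη, hκ, hκ1, hrel⟩ :=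
    rel_window ϑ hinj hind k A n hk y z η0 hy hyk hz hη0 hdet
  obtain ⟨h1, h2, h3⟩ := hnum η hη.le hηη.le
  refine ⟨η, hη, ?_⟩
  obtain ⟨C, D, hcone⟩ := cone_rel e n Δ b (e + 1) 1
  obtain ⟨Ct, hCt, htube⟩ := tube_count e (n + 2) D
  obtain ⟨X0, hfib⟩ := fiber_bound he ϑ hind k A
  have hθ : Function.Injective fun i => (ϑ i : F) := fun i j h => hinj (RingOfIntegers.ext h)
  obtain ⟨g, hg, hg'⟩ := exists_linear_forms _ hθ
  set hh : ℝ := (y + 1 * η) / ((e + 1 : ℕ) : ℝ) with hhh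
  set f : ℝ := 1 + C + ((e * (2 * A + 1) : ℕ) : ℝ) with hf
  have hf1 : 1 ≤ f := by
    rw [hf]
    linarith [Nat.cast_nonneg (α := ℝ) C, Nat.cast_nonneg (α := ℝ) (e * (2 * A + 1))]
  refine tube_final e (n + 2) Ct f κ z s hh hCt hκ hs (by simpa using h2) (by simpa using h3)
    _ (fun X => Nat.cast_nonneg _) ?_
  filter_upwards [hrel, eventually_gt_atTop 1, eventually_ge_atTop X0,
    la_absorb 3 (hh - z) s h1] with X hrelX hX hXX0 hA q hq hsq
  have hX0 : 0 < X := by linarith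
  obtain ⟨p, av, m, β, hD⟩ := bad_data ϑ k A hk (y - η) (y + η) X hX
  have hδ1 : X ^ (-z) ≤ 1 := Real.rpow_le_one_of_one_le_of_nonpos hX.le (by linarith)
  have hδ0 : 0 < X ^ (-z) := by positivity
  refine htube F _ av (X ^ hh) (κ * X ^ (-z)) f q hq (by positivity) (by nlinarith)
    (by positivity) ?_ hf1
    (fun N hN => ⟨(hD N hN).1.ha0, fun l => ((hD N hN).1.hab l).trans ?_⟩) (fun T hT hT' => ?_)
    (fun T hT l0 hmax hclose => ?_)
  · have a1 : X ^ hh * X ^ (-z) = X ^ (hh - z) := by rw [← Real.rpow_add hX0]; rfl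
    have a2 : 0 < X ^ (hh - z) := by positivity
    calc 2 * X ^ hh * (κ * X ^ (-z)) = 2 * κ * X ^ (hh - z) := by rw [← a1]; ring
      _ < 3 * X ^ (hh - z) := by gcongr; linarith
      _ ≤ q := hA.trans hsq
  · rw [hhh, one_mul, div_eq_mul_one_div (y + η), Real.rpow_mul hX0.le]
    push_cast
    exact Real.rpow_le_rpow (by positivity) (hD N hN).2.2.2.2.2 (by positivity)
  · rcases T.eq_empty_or_nonempty with rfl | ⟨N0, hN0⟩
    · simp only [Finset.card_empty, Nat.cast_zero]; linarith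
    have a1 := hfib T p (av N0) m β (fun N hN => hT' N hN N0 hN0 ▸ (hD N (hT hN)).1)
      (fun N hN => ⟨(hD N (hT hN)).2.1.1, hXX0.trans (hD N (hT hN)).2.1.2.1,
        (hD N (hT hN)).2.1.2.2⟩)
    have a2 : (T.card : ℝ) ≤ ((e * (2 * A + 1) : ℕ) : ℝ) := by exact_mod_cast a1
    rw [hf]
    linarith [Nat.cast_nonneg (α := ℝ) C]
  · have hα0 : ∀ N ∈ T, pv (av N) (ϑ 0 : F) ≠ 0 := fun N hN => by
      have := (map_pv (algebraMap (𝓞 F) F) (av N) (ϑ 0))
      rw [← RingOfIntegers.coe_eq_algebraMap, ← RingOfIntegers.coe_eq_algebraMap] at this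
      rw [← this]
      exact RingOfIntegers.coe_ne_zero_iff.mpr (hind _ _ (hD N (hT hN)).1.ha0)
    obtain ⟨Pi0, hP0, hPd, hΦ⟩ := hcone F T
      (fun N i => pv (av N) (ϑ i.succ : F) / pv (av N) (ϑ 0 : F)) (fun N => pv (av N) (ϑ 0 : F))
      (fun N l => ((av N l : ℤ) : F)) (fun l => MvPolynomial.rename Fin.succ (g l))
      (fun l => (MvPolynomial.totalDegree_rename_le _ _).trans (hg l))
      (fun N hN l => by
        rw [MvPolynomial.eval_rename]
        exact hg' (av N) (hα0 N hN) l)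
      (hrelX T p av m β l0 (fun N hN => (hD N (hT hN)).1) (fun N hN => (hD N (hT hN)).2.2)
        hmax hclose)
    refine ⟨T.filter fun N => Pi0.eval ((N : ℤ) : F) = 0,
      {T.filter fun N => Pi0.eval ((N : ℤ) : F) ≠ 0}, ?_, by simpa using hf1, fun N hN => ?_,
      fun T' hT' J hJ => ?_⟩
    · have a1 : ((T.filter fun N => Pi0.eval ((N : ℤ) : F) = 0).card : ℝ) ≤ C := by
        exact_mod_cast wa_roots T Pi0 hP0 C hPd
      rw [hf]
      linarith [Nat.cast_nonneg (α := ℝ) (e * (2 * A + 1))]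
    · by_cases h : Pi0.eval ((N : ℤ) : F) = 0
      · exact Or.inl (Finset.mem_filter.mpr ⟨hN, h⟩)
      · exact Or.inr ⟨_, Finset.mem_singleton_self _, Finset.mem_filter.mpr ⟨hN, h⟩⟩
    · rw [Finset.mem_singleton.mp hT']
      obtain ⟨Φ, a1, a2, a3⟩ := hΦ J hJ
      exact ⟨Φ, a1, a2, fun N hN => a3 N (Finset.mem_filter.mp hN).1 (Finset.mem_filter.mp hN).2⟩

end Vale.Agent.P018
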