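import Vale.Agent.P018.R.WindowA
import Vale.Agent.P018.R.Close
import Vale.Agent.P018.Q.CurveCommon

namespace Vale.Agent.P018

open NumberField Finset Filter Topology

variable {F : Type} [Field F] [NumberField F]

theorem wb_max_ne {e : ℕ} {a : Fin (e + 1) → ℤ} {l0 : Fin (e + 1)} (h0 : a ≠ 0)
    (hmax : ∀ l, |(a l : ℝ)| ≤ |(a l0 : ℝ)|) : a l0 ≠ 0 := by
  intro h
  apply h0
  funext l
  have := hmax l
  rw [h] at this
  simpa using this

/-- the polynomials expressing the coordinates of `β` -/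
noncomputable def wbPoly {e : ℕ} (k : ℕ) (θ : Fin (e + 1) → F) (E : Fin (e + 1) → F) :
    MvPolynomial (Fin (e + 1)) F :=
  ∑ i, MvPolynomial.C (E i) * ((MvPolynomial.X 0 - MvPolynomial.C (θ i)) *
    ∏ j ∈ Finset.univ.erase i,
      (Fin.cons 1 (fun i : Fin e => MvPolynomial.X i.succ) : Fin (e + 1) → _) j ^ k)

omit [NumberField F] in
theorem wb_deg {e : ℕ} (k : ℕ) (θ : Fin (e + 1) → F) (E : Fin (e + 1) → F) :
    (wbPoly k θ E).totalDegree ≤ 1 + (e + 1) * k := by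
  refine MvPolynomial.totalDegree_finsetSum_le fun i _ => ?_
  refine (MvPolynomial.totalDegree_mul _ _).trans ?_
  rw [MvPolynomial.totalDegree_C, zero_add]
  refine (MvPolynomial.totalDegree_mul _ _).trans (add_le_add ?_ ?_)
  · refine (MvPolynomial.totalDegree_sub _ _).trans (max_le ?_ (by simp))
    simp
  · refine (MvPolynomial.totalDegree_finsetProd _ _).trans ?_
    calc _ ≤ ∑ _j ∈ Finset.univ.erase i, k := by
          refine Finset.sum_le_sum fun j _ => (MvPolynomial.totalDegree_pow _ _).trans ?_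
          refine Fin.cases ?_ (fun j => ?_) j <;> simp
      _ ≤ (e + 1) * k := by
          rw [Finset.sum_const, smul_eq_mul]
          gcongr
          exact (Finset.card_le_univ _).trans (by simp)

omit [NumberField F] in
theorem wb_eval {e : ℕ} (k : ℕ) (θ E α β : Fin (e + 1) → F) (m N : F) (hα : ∀ i, α i ≠ 0)
    (h : ∀ i, α i ^ k * β i = m ^ k * (N - θ i)) :
    ∑ i, E i * β i = (m ^ k / (α 0 ^ k * ∏ j, (α j / α 0) ^ k)) *
      MvPolynomial.eval (Fin.cons N fun i => α i.succ / α 0) (wbPoly k θ E) := by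
  have hx : ∀ j, MvPolynomial.eval (Fin.cons N fun i => α i.succ / α 0 : Fin (e + 1) → F)
      ((Fin.cons 1 (fun i : Fin e => MvPolynomial.X i.succ) : Fin (e + 1) → _) j) =
      α j / α 0 := by
    intro j
    refine Fin.cases ?_ (fun j => ?_) j
    · simp [hα 0]
    · simp
  rw [wbPoly, map_sum, Finset.mul_sum]
  refine Finset.sum_congr rfl fun i _ => ?_
  simp only [map_mul, map_sub, map_prod, map_pow, MvPolynomial.eval_C, MvPolynomial.eval_X,
    Fin.cons_zero, hx]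
  rw [← Finset.mul_prod_erase _ (fun j => (α j / α 0) ^ k) (Finset.mem_univ i)]
  have h1 : ∏ j ∈ Finset.univ.erase i, (α j / α 0) ^ k ≠ 0 :=
    Finset.prod_ne_zero_iff.mpr fun j _ => pow_ne_zero _ (div_ne_zero (hα j) (hα 0))
  generalize ∏ j ∈ Finset.univ.erase i, (α j / α 0) ^ k = P at h1
  have h2 : β i = m ^ k * (N - θ i) / α i ^ k := by
    rw [eq_div_iff (pow_ne_zero _ (hα i)), mul_comm, h]
  have h3 := hα 0
  have h4 := hα i
  rw [h2, div_pow]
  field_simp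

theorem windowB {e : ℕ} (he : 1 ≤ e) (c : GCtx e F) (k A : ℕ) (hk : 1 ≤ k)
    (y : ℝ) (hy : 1 ≤ y) (hyk : (k : ℝ) * y ≤ ((e + 1 : ℕ) : ℝ)) (hgood : GoodB (e + 1) k y) :
    ∃ η : ℝ, 0 < η ∧ Tendsto (fun X : ℝ =>
      ((Bad c.ϑ k A (Set.Icc (y - η) (y + η)) X).card : ℝ) / X) atTop (𝓝 0) := by
  classical
  obtain ⟨n, z, hz, hy2, hdet, hbal⟩ := hgood
  have hd0 : (0 : ℝ) < ((e + 1 : ℕ) : ℝ) := by positivity
  obtain ⟨s, η0, hs, hη0, hnum⟩ := wa_eta (e + 1) n (by omega) _ z (k + 1) hbal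
  obtain ⟨η, κ, Δ, b, hη, hηη, hκ, hκ1, hrel⟩ :=
    rel_window c.ϑ c.hinj c.hind k A n hk y z (min η0 ((((e + 1 : ℕ) : ℝ) - 2 * y) / 2)) hy hyk hz
      (lt_min hη0 (by linarith)) hdet
  obtain ⟨h1, h2, h3⟩ := hnum η hη.le (hηη.le.trans (min_le_left _ _))
  have hη2 : 2 * (y + η) < ((e + 1 : ℕ) : ℝ) := by
    have := hηη.trans_le (min_le_right _ _)
    linarith
  have hz1 : z < 1 := by
    have a1 : (1 : ℝ) ≤ e := by exact_mod_cast he
    have a2 : 0 ≤ ((n + 2 : ℕ) : ℝ) * s := by positivity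
    push_cast at h2 a2
    nlinarith
  refine ⟨η, hη, ?_⟩
  obtain ⟨d0, E, hd0', -, hcoord⟩ := c.beta_coords k
  obtain ⟨ε0, C1, X0, hε0, hC1, hclose⟩ := beta_close c k hk A (Nat.cast_nonneg _) d0 hd0'
  obtain ⟨C, D, hcone⟩ := cone_rel e n Δ b (e + 1) (1 + (e + 1) * k)
  obtain ⟨Ct, hCt, htube⟩ := tube_count e (n + 2) D
  set hh : ℝ := (((e + 1 : ℕ) : ℝ) - k * y + (k + 1) * η) / ((e + 1 : ℕ) : ℝ) with hhh
  set K0 : ℝ := (e + 1) * (2 / ε0 + 3) ^ e with hK0
  have hK00 : 0 ≤ K0 := by positivity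
  set f : ℝ := 1 + K0 + K0 * C with hf
  have hKC : 0 ≤ K0 * C := by positivity
  have hf1 : 1 ≤ f := by rw [hf]; linarith
  set κ' : ℝ := κ / (2 * C1) with hκ'
  have hκ'0 : 0 < κ' := by positivity
  have hκ'1 : κ' ≤ 1 := by rw [hκ', div_le_one (by positivity)]; linarith
  refine tube_final e (n + 2) Ct f κ' z s hh hCt hκ'0 hs (by simpa using h2) (by simpa using h3)
    _ (fun X => Nat.cast_nonneg _) ?_
  filter_upwards [hrel, eventually_gt_atTop 1, eventually_ge_atTop X0,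
    la_absorb 3 (hh - z) s h1,
    la_absorb C1 (1 - k * (y - η) / ((e : ℝ) + 1)) hh (by
      rw [hhh, lt_div_iff₀ hd0]
      push_cast
      have : (1 - k * (y - η) / ((e : ℝ) + 1)) * ((e : ℝ) + 1) = (e : ℝ) + 1 - k * (y - η) := by
        field_simp
      rw [this]
      linarith),
    la_absorb (2 * C1 / κ) (-1) (-z) (by linarith),
    la_absorb (2 * C1) (2 * ((y + η) / ((e : ℝ) + 1))) 1 (by
      rw [← mul_div_assoc, div_lt_one (by positivity)]
      push_cast at hη2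
      exact hη2)] with X hrelX hX hXX0 hA hA2 hA3 hA4 q hq hsq
  have hX0 : 0 < X := by linarith
  obtain ⟨p, av, m, β, hD⟩ := bad_data c.ϑ k A hk (y - η) (y + η) X hX
  have hex := fun N hN => hcoord he N (p N) (av N) (m N) (β N) (hD N hN).1
  choose! bv hb1 hb2 using hex
  obtain ⟨hsize, hcl⟩ := hclose X hXX0
  have hδ1 : X ^ (-z) ≤ 1 := Real.rpow_le_one_of_one_le_of_nonpos hX.le (by linarith)
  have hδ0 : 0 < X ^ (-z) := by positivity
  have hsz := fun N hN => hsize N (p N) (av N) (bv N) (m N) (β N) (hD N hN).1 (hD N hN).2.2.1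
    (hD N hN).2.2.2.1 (hb1 N hN)
  refine htube F _ bv (X ^ hh) (κ' * X ^ (-z)) f q hq (by positivity) (by nlinarith)
    (by positivity) ?_ hf1
    (fun N hN => ⟨(hsz N hN).1, fun l => ((hsz N hN).2 l).trans (le_trans ?_ hA2)⟩)
    (fun T hT hT' => ?_) (fun T hT l1 hmax hclose => ?_)
  · have a1 : X ^ hh * X ^ (-z) = X ^ (hh - z) := by rw [← Real.rpow_add hX0]; rfl
    have a2 : 0 < X ^ (hh - z) := by positivity
    calc 2 * X ^ hh * (κ' * X ^ (-z)) = 2 * κ' * X ^ (hh - z) := by rw [← a1]; ring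
      _ < 3 * X ^ (hh - z) := by gcongr; linarith
      _ ≤ q := hA.trans hsq
  · rw [Real.rpow_sub hX0, Real.rpow_one, mul_div_assoc]
    gcongr
    rw [mul_comm (k : ℝ), mul_div_assoc, Real.rpow_mul hX0.le]
    exact Real.rpow_le_rpow (by positivity) (hD N hN).2.2.2.2.1 (by positivity)
  · obtain ⟨𝒯, a1, a2, a3⟩ := dir_boxes e T av (fun N hN => (hD N (hT hN)).1.ha0) ε0 hε0
    have a4 := card_le_of_cover T 𝒯 K0 1 zero_le_one a1 a2 fun T' hT'' => ?_
    · rw [hf]; linarith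
    obtain ⟨b1, l0, b2, b3⟩ := a3 T' hT''
    have : T'.card ≤ 1 := by
      refine Finset.card_le_one.mpr fun N hN N' hN' => ?_
      have hN1 := hT (b1 hN)
      have hN1' := hT (b1 hN')
      have hbb : bv N' = bv N := hT' N' (b1 hN') N (b1 hN)
      obtain ⟨l1, -, hl1⟩ := Finset.exists_max_image Finset.univ (fun l => |(bv N l : ℝ)|)
        Finset.univ_nonempty
      have c1 := hcl N N' (p N) (p N') (av N) (av N') (bv N) (bv N) (m N) (m N') (β N) (β N') l0 l1
        0 (hD N hN1).1 (hD N' hN1').1 (hD N hN1).2.2.1 (hD N hN1).2.2.2.1 (hD N' hN1').2.2.1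
        (hD N' hN1').2.2.2.1 (hb1 N hN1) (hbb ▸ hb1 N' hN1') (b2 N hN) (b2 N' hN')
        (fun l => hl1 l (Finset.mem_univ l)) (fun l => hl1 l (Finset.mem_univ l)) (b3 N hN N' hN')
        (fun l => by simp)
      have c2 := wb_max_ne (hD N hN1).1.ha0 (b2 N hN)
      have c3 := wb_max_ne (hD N' hN1').1.ha0 (b2 N' hN')
      refine eq_of_parallel he c k d0 hd0' N N' (p N) (p N') (av N) (av N') (bv N) (m N) (m N')
        (β N) (β N') l0 (hD N hN1).1 (hD N' hN1').1 (hb1 N hN1) (hbb ▸ hb1 N' hN1') c2 c3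
        fun l => ?_
      have hup : ∀ M ∈ Bad c.ϑ k A (Set.Icc (y - η) (y + η)) X,
          |(av M l0 : ℝ)| ≤ X ^ ((y + η) / ((e : ℝ) + 1)) := fun M hM => by
        refine ((hD M hM).1.hab l0).trans ?_
        rw [div_eq_mul_one_div (y + η), Real.rpow_mul hX0.le]
        exact Real.rpow_le_rpow (by positivity) (hD M hM).2.2.2.2.2 (by positivity)
      have c4 : (av N l0 : ℝ) ≠ 0 := by exact_mod_cast c2
      have c5 : (av N' l0 : ℝ) ≠ 0 := by exact_mod_cast c3
      have c6 := c1 l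
      rw [div_sub_div _ _ c4 c5, abs_div, div_le_iff₀ (abs_pos.mpr (mul_ne_zero c4 c5)), zero_add,
        abs_mul] at c6
      have c7 : C1 * (1 / X) * (|(av N l0 : ℝ)| * |(av N' l0 : ℝ)|) ≤ C1 * (1 / X) *
          (X ^ ((y + η) / ((e : ℝ) + 1)) * X ^ ((y + η) / ((e : ℝ) + 1))) := by
        gcongr
        · exact hup N hN1
        · exact hup N' hN1'
      rw [← Real.rpow_add hX0, ← two_mul] at c7
      rw [Real.rpow_one] at hA4
      have c8 : C1 * (1 / X) * X ^ (2 * ((y + η) / ((e : ℝ) + 1))) ≤ 1 / 2 := by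
        rw [mul_one_div, div_mul_eq_mul_div, div_le_iff₀ hX0]
        linarith
      have c9 : |((av N l * av N' l0 - av N l0 * av N' l : ℤ) : ℝ)| < 1 := by
        push_cast
        linarith
      have c10 : |av N l * av N' l0 - av N l0 * av N' l| < 1 := by exact_mod_cast c9
      have c11 := Int.abs_lt_one_iff.mp c10
      linarith
    exact_mod_cast this
  · obtain ⟨𝒯, a1, a2, a3⟩ := dir_boxes e T av (fun N hN => (hD N (hT hN)).1.ha0) ε0 hε0
    have hα0 : ∀ N ∈ T, ∀ i, pv (av N) (c.ϑ i : F) ≠ 0 := fun N hN i => by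
      have := (map_pv (algebraMap (𝓞 F) F) (av N) (c.ϑ i))
      rw [← RingOfIntegers.coe_eq_algebraMap, ← RingOfIntegers.coe_eq_algebraMap] at this
      rw [← this]
      exact RingOfIntegers.coe_ne_zero_iff.mpr (c.hind _ _ (hD N (hT hN)).1.ha0)
    have hP : ∀ T' ∈ 𝒯, ∃ Pi0 : Polynomial F, Pi0 ≠ 0 ∧ Pi0.natDegree ≤ C ∧
        ∀ J : Finset (Fin (e + 1)), J.card = n + 3 → ∃ Φ : MvPolynomial (Fin (e + 1)) F, Φ ≠ 0 ∧
          (∀ E ∈ Φ.support, E.support ⊆ J ∧ ∀ i, E i ≤ D) ∧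
          ∀ N ∈ T', Pi0.eval ((N : ℤ) : F) ≠ 0 →
            MvPolynomial.eval (fun l => ((bv N l : ℤ) : F)) Φ = 0 := by
      intro T' hT'
      obtain ⟨b1, l0, b2, b3⟩ := a3 T' hT'
      refine hcone F T'
        (fun N i => pv (av N) (c.ϑ i.succ : F) / pv (av N) (c.ϑ 0 : F))
        (fun N => (m N : F) ^ k / (pv (av N) (c.ϑ 0 : F) ^ k *
          ∏ j, (pv (av N) (c.ϑ j : F) / pv (av N) (c.ϑ 0 : F)) ^ k))
        (fun N l => ((bv N l : ℤ) : F)) (fun l => wbPoly k (fun i => (c.ϑ i : F)) fun i => (E l i : F))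
        (fun l => wb_deg _ _ _) (fun N hN l => ?_)
        (hrelX T' p av m β l0 (fun N hN => (hD N (hT (b1 hN))).1)
          (fun N hN => (hD N (hT (b1 hN))).2.2) b2 fun N hN N' hN' l => ?_)
      · rw [← wb_eval k (fun i => (c.ϑ i : F)) (fun i => (E l i : F))
          (fun i => pv (av N) (c.ϑ i : F)) (fun i => (β N i : F)) (m N : F) (N : F)
          (hα0 N (b1 hN)) (fun i => by
            have := congrArg (algebraMap (𝓞 F) F) ((hD N (hT (b1 hN))).1.hβ i)
            simpa [map_pv] using this)]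
        have := congrArg (algebraMap (𝓞 F) F) (hb2 N (hT (b1 hN)) l)
        simpa using this
      · have hN1 := hT (b1 hN)
        have hN1' := hT (b1 hN')
        refine (hcl N N' (p N) (p N') (av N) (av N') (bv N) (bv N') (m N) (m N') (β N) (β N') l0 l1
          _ (hD N hN1).1 (hD N' hN1').1 (hD N hN1).2.2.1 (hD N hN1).2.2.2.1 (hD N' hN1').2.2.1
          (hD N' hN1').2.2.2.1 (hb1 N hN1) (hb1 N' hN1') (b2 N hN) (b2 N' hN')
          (hmax N (b1 hN)) (hmax N' (b1 hN')) (b3 N hN N' hN')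
          (hclose N (b1 hN) N' (b1 hN')) l).trans ?_
        rw [Real.rpow_neg_one, div_mul_eq_mul_div, div_le_iff₀ hκ] at hA3
        have : C1 * (κ' * X ^ (-z)) = κ / 2 * X ^ (-z) := by rw [hκ']; field_simp
        rw [mul_add, this, one_div]
        linarith
    choose! Pi0 hP0 hPd hΦ using hP
    refine ⟨𝒯.biUnion fun T' => T'.filter fun N => (Pi0 T').eval ((N : ℤ) : F) = 0,
      𝒯.image fun T' => T'.filter fun N => (Pi0 T').eval ((N : ℤ) : F) ≠ 0, ?_, ?_,
      fun N hN => ?_, fun T'' hT'' J hJ => ?_⟩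
    · have b1 := Finset.card_biUnion_le_card_mul 𝒯
        (fun T' => T'.filter fun N => (Pi0 T').eval ((N : ℤ) : F) = 0) C
        fun T' hT' => wa_roots T' _ (hP0 T' hT') C (hPd T' hT')
      have b2 : ((𝒯.biUnion fun T' => T'.filter fun N => (Pi0 T').eval ((N : ℤ) : F) = 0).card : ℝ)
          ≤ 𝒯.card * C := by exact_mod_cast b1
      have b3 : (𝒯.card : ℝ) * C ≤ K0 * C := by gcongr
      rw [hf]
      linarith
    · refine (Nat.cast_le.mpr Finset.card_image_le).trans (a1.trans ?_)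
      rw [hf]
      linarith
    · obtain ⟨T', b1, b2⟩ := a2 N hN
      by_cases h : (Pi0 T').eval ((N : ℤ) : F) = 0
      · exact Or.inl (Finset.mem_biUnion.mpr ⟨T', b1, Finset.mem_filter.mpr ⟨b2, h⟩⟩)
      · exact Or.inr ⟨_, Finset.mem_image_of_mem _ b1, Finset.mem_filter.mpr ⟨b2, h⟩⟩
    · obtain ⟨T', b1, rfl⟩ := Finset.mem_image.mp hT''
      obtain ⟨Φ, b2, b3, b4⟩ := hΦ T' b1 J hJ
      exact ⟨Φ, b2, b3, fun N hN => b4 N (Finset.mem_filter.mp hN).1 (Finset.mem_filter.mp hN).2⟩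

end Vale.Agent.P018
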